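import Mathlib

/-!
The definitions used in the statements on truncated Ore extensions.
-/

open CategoryTheory Abelian Module

namespace Vale.Agent.Lib.P195.Ore

universe u v

/-- The Auslander-Reiten property with parameter `m`: every finitely generated left module `M`
with `Ext^i(M, A) = 0` for all `i ≥ 1`, `Ext¹(M, M) = 0` and `Ext^i(M, M) = 0` for all `i > m` is
projective. -/
def ARm (A : Type u) [Ring A] (m : ℕ) : Prop :=
  ∀ M : ModuleCat.{u} A, Module.Finite A M →
    (∀ i : ℕ, 1 ≤ i → ∀ e : Ext M (ModuleCat.of A A) i, e = 0) →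
    (∀ e : Ext M M 1, e = 0) →
    (∀ i : ℕ, m < i → ∀ e : Ext M M i, e = 0) →
    Module.Projective A M

/-- The data presenting `R` as a truncated Ore extension `S[x; σ] / (x ^ a)`: a homomorphism
`ι : S → R`, an element `x` with `x * ι s = ι (σ s) * x` and `x ^ a = 0`, such that every element
of `R` is uniquely of the form `∑ ι (c j) * x ^ j`, `j < a`. -/
structure OreData (k : Type v) (S R : Type u) [Field k] [Ring S] [Algebra k S] [Ring R]
    [Algebra k R] (a : ℕ) where
  ι : S →ₐ[k] R
  x : R
  σ : S ≃ₐ[k] S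
  comm : ∀ s, x * ι s = ι (σ s) * x
  nil : x ^ a = 0
  rep : ∀ r, ∃! c : Fin a → S, r = ∑ j, ι (c j) * x ^ (j : ℕ)

/-- Polynomial dependence on the parameter `c`, tested on linear functionals. -/
def PolyCurve {k : Type v} [Field k] {V : Type*} [AddCommGroup V] [Module k V] (F : k → V) : Prop :=
  ∀ φ : Module.Dual k V, ∃ p : Polynomial k, ∀ c, φ (F c) = p.eval c

/-- The ordered monomial `x 0 ^ E 0 * ... * x (n - 1) ^ E (n - 1)` in a family of elements. -/
def mon {R : Type u} [Ring R] {n : ℕ} (x : Fin n → R) (E : Fin n → ℕ) : R :=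
  ((List.finRange n).map fun i => x i ^ E i).prod

/-- A quantum complete intersection: an algebra with generators `x i`, relations
`x j * x i = q i j • (x i * x j)` for `i < j` with nonzero scalars `q i j`, and `x i ^ e i = 0`,
whose ordered monomials `x 0 ^ g 0 * ... * x (n - 1) ^ g (n - 1)`, `g i < e i`, form a basis. -/
structure QuantumCI (k : Type v) (R : Type u) [Field k] [Ring R] [Algebra k R] (n : ℕ) where
  x : Fin n → R
  q : Fin n → Fin n → k
  e : Fin n → ℕ
  q_ne : ∀ i j, q i j ≠ 0
  e_pos : ∀ i, 0 < e i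
  rel : ∀ i j, i < j → x j * x i = q i j • (x i * x j)
  pow : ∀ i, x i ^ e i = 0
  b : Basis ((i : Fin n) → Fin (e i)) k R
  hb : ∀ g, b g = mon x (fun i => (g i : ℕ))

end Vale.Agent.Lib.P195.Ore
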