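import Vale.Agent.Lib.P176.Normal
import Vale.Agent.Lib.P195.Ore.Defs

/-!
Truncated Ore extensions `R = S[x; σ] / (x ^ a)` of finite-dimensional algebras, described by a
subalgebra `S`, a normal element `x` and the left `S`-basis `1, x, ..., x ^ (a - 1)`.
-/

set_option linter.style.haveILetI false
set_option linter.unusedVariables false
set_option linter.unusedSectionVars false

open CategoryTheory Abelian Module

namespace Vale.Agent.Lib.P195.Ore

universe u v

variable {k : Type v} {S R : Type u} [Field k] [Ring S] [Algebra k S] [Ring R] [Algebra k R]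
  {a : ℕ} (d : OreData k S R a)

namespace OreData

lemma pow_comm (l : ℕ) (s : S) : d.x ^ l * d.ι s = d.ι ((d.σ ^ l) s) * d.x ^ l := by
  induction l generalizing s with
  | zero => simp
  | succ l ih =>
    rw [pow_succ, mul_assoc, d.comm, ← mul_assoc, ih, mul_assoc, pow_succ]
    congr 2

lemma pow_eq_zero (l : ℕ) (hl : a ≤ l) : d.x ^ l = 0 := by
  obtain ⟨b, rfl⟩ := Nat.exists_eq_add_of_le hl
  rw [pow_add, d.nil, zero_mul]

/-- The coefficient isomorphism. -/
noncomputable def Φ : (Fin a → S) ≃ₗ[k] R :=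
  LinearEquiv.ofBijective
    { toFun := fun c => ∑ j : Fin a, d.ι (c j) * d.x ^ (j : ℕ)
      map_add' := fun c c' => by
        simp [add_mul, Finset.sum_add_distrib]
      map_smul' := fun t c => by
        simp [Finset.smul_sum, Algebra.smul_mul_assoc] }
    (by
      constructor
      · intro c c' h
        exact ((d.rep _).unique rfl h)
      · intro r
        obtain ⟨c, hc, -⟩ := d.rep r
        exact ⟨c, hc.symm⟩)

lemma Φ_apply (c : Fin a → S) : d.Φ c = ∑ j, d.ι (c j) * d.x ^ (j : ℕ) := rfl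

/-- The coefficients of an element. -/
noncomputable def coef (r : R) : Fin a → S := d.Φ.symm r

lemma coef_spec (r : R) : r = ∑ j, d.ι (d.coef r j) * d.x ^ (j : ℕ) := by
  have := d.Φ.apply_symm_apply r
  rw [Φ_apply] at this
  exact this.symm

lemma coef_Φ (c : Fin a → S) : d.coef (d.Φ c) = c := d.Φ.symm_apply_apply c

lemma coef_eq {r : R} {c : Fin a → S} (h : r = ∑ j, d.ι (c j) * d.x ^ (j : ℕ)) : d.coef r = c := by
  rw [h, ← Φ_apply, coef_Φ]

lemma coef_add (r r' : R) : d.coef (r + r') = d.coef r + d.coef r' := map_add d.Φ.symm r r'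

lemma coef_ι_mul (s : S) (r : R) (j : Fin a) : d.coef (d.ι s * r) j = s * d.coef r j := by
  have h : d.coef (d.ι s * r) = fun j => s * d.coef r j := by
    apply d.coef_eq
    conv_lhs => rw [d.coef_spec r, Finset.mul_sum]
    refine Finset.sum_congr rfl fun j _ => ?_
    rw [map_mul, mul_assoc]
  rw [h]

lemma ι_mul_pow_coef (s : S) (l : Fin a) :
    d.coef (d.ι s * d.x ^ (l : ℕ)) = Pi.single l s := by
  classical
  apply d.coef_eq
  rw [Finset.sum_eq_single l]
  · simp
  · intro j _ hj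
    simp [Pi.single_eq_of_ne hj]
  · simp

lemma pow_coef (l : Fin a) : d.coef (d.x ^ (l : ℕ)) = Pi.single l 1 := by
  have := d.ι_mul_pow_coef 1 l
  simpa using this

/-- Induction along the generators. -/
lemma gen_induction {P : R → Prop} (hι : ∀ s, P (d.ι s)) (hx : P d.x)
    (hadd : ∀ r r', P r → P r' → P (r + r')) (hmul : ∀ r r', P r → P r' → P (r * r')) (r : R) :
    P r := by
  have hpow : ∀ l : ℕ, P (d.x ^ l) := by
    intro l
    induction l with
    | zero =>
      have := hι 1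
      simpa using this
    | succ l ih =>
      rw [pow_succ]
      exact hmul _ _ ih hx
  have h0 : P 0 := by
    have := hι 0
    simpa using this
  rw [d.coef_spec r]
  refine Finset.sum_induction _ P hadd h0 fun j _ => hmul _ _ (hι _) (hpow _)

lemma exists_mul_x (y : R) : ∃ y', y * d.x = d.x * y' := by
  refine d.gen_induction (P := fun y => ∃ y', y * d.x = d.x * y') ?_ ⟨d.x, rfl⟩ ?_ ?_ y
  · intro s
    refine ⟨d.ι (d.σ.symm s), ?_⟩
    rw [d.comm]
    simp
  · rintro r r' ⟨y₁, h₁⟩ ⟨y₂, h₂⟩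
    exact ⟨y₁ + y₂, by rw [add_mul, h₁, h₂, mul_add]⟩
  · rintro r r' ⟨y₁, h₁⟩ ⟨y₂, h₂⟩
    refine ⟨y₁ * y₂, ?_⟩
    rw [mul_assoc, h₂, ← mul_assoc, h₁, mul_assoc]

lemma exists_x_mul (y : R) : ∃ y', d.x * y = y' * d.x := by
  refine d.gen_induction (P := fun y => ∃ y', d.x * y = y' * d.x) ?_ ⟨d.x, rfl⟩ ?_ ?_ y
  · intro s
    exact ⟨d.ι (d.σ s), d.comm s⟩
  · rintro r r' ⟨y₁, h₁⟩ ⟨y₂, h₂⟩
    exact ⟨y₁ + y₂, by rw [mul_add, h₁, h₂, add_mul]⟩
  · rintro r r' ⟨y₁, h₁⟩ ⟨y₂, h₂⟩
    refine ⟨y₁ * y₂, ?_⟩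
    rw [← mul_assoc, h₁, mul_assoc, h₂, mul_assoc]

/-- A monomial times a monomial. -/
lemma mono_mul (s s' : S) (l l' : ℕ) :
    (d.ι s * d.x ^ l) * (d.ι s' * d.x ^ l') = d.ι (s * (d.σ ^ l) s') * d.x ^ (l + l') := by
  rw [mul_assoc, ← mul_assoc (d.x ^ l), d.pow_comm, map_mul, mul_assoc, mul_assoc, pow_add]

/-- The extension of a `σ`-equivariant linear map to `R`, rescaling `x` by `u`. -/
noncomputable def extLin (T : S →ₗ[k] S) (u : k) : R →ₗ[k] R where
  toFun r := ∑ j : Fin a, u ^ (j : ℕ) • (d.ι (T (d.coef r j)) * d.x ^ (j : ℕ))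
  map_add' r r' := by
    simp [coef_add, add_mul, Finset.sum_add_distrib]
  map_smul' t r := by
    have : d.coef (t • r) = t • d.coef r := map_smul d.Φ.symm t r
    simp only [this, Pi.smul_apply, map_smul, RingHom.id_apply, Finset.smul_sum,
      Algebra.smul_mul_assoc]
    refine Finset.sum_congr rfl fun j _ => ?_
    rw [smul_comm]

lemma extLin_mono (T : S →ₗ[k] S) (u : k) (s : S) (l : ℕ) :
    d.extLin T u (d.ι s * d.x ^ l) = u ^ l • (d.ι (T s) * d.x ^ l) := by
  classical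
  by_cases hl : l < a
  · change ∑ j : Fin a, u ^ (j : ℕ) • (d.ι (T (d.coef _ j)) * d.x ^ (j : ℕ)) = _
    have h := d.ι_mul_pow_coef s ⟨l, hl⟩
    simp only [] at h
    rw [h, Finset.sum_eq_single (⟨l, hl⟩ : Fin a)]
    · simp
    · intro j _ hj
      simp [Pi.single_eq_of_ne hj]
    · simp
  · rw [d.pow_eq_zero l (by omega)]
    simp

lemma extLin_eq_sum (T : S →ₗ[k] S) (u : k) (r : R) :
    d.extLin T u r = ∑ j : Fin a, u ^ (j : ℕ) • (d.ι (T (d.coef r j)) * d.x ^ (j : ℕ)) := rfl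

/-- The extension of an algebra endomorphism commuting with `σ`. -/
noncomputable def extAlg (ha : 0 < a) (T : S →ₐ[k] S) (hT : ∀ s, T (d.σ s) = d.σ (T s)) (u : k) :
    R →ₐ[k] R :=
  AlgHom.ofLinearMap (d.extLin T.toLinearMap u)
    (by
      have h1 : (1 : R) = d.ι 1 * d.x ^ 0 := by simp
      rw [h1, extLin_mono]
      simp)
    (by
      have hTp : ∀ (l : ℕ) (s : S), T ((d.σ ^ l) s) = (d.σ ^ l) (T s) := by
        intro l s
        induction l generalizing s with
        | zero => simp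
        | succ l ih =>
          rw [pow_succ]
          change T ((d.σ ^ l) (d.σ s)) = (d.σ ^ l) (d.σ (T s))
          rw [ih, hT]
      intro r r'
      conv_lhs => rw [d.coef_spec r, d.coef_spec r']
      conv_rhs => rw [d.coef_spec r, d.coef_spec r']
      simp only [Finset.sum_mul, Finset.mul_sum, map_sum]
      refine Finset.sum_congr rfl fun j _ => Finset.sum_congr rfl fun j' _ => ?_
      rw [mono_mul, extLin_mono, extLin_mono, extLin_mono]
      simp only [smul_mul_assoc, mul_smul_comm, smul_smul, AlgHom.toLinearMap_apply]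
      rw [mono_mul, map_mul, hTp, pow_add, mul_comm])

lemma extAlg_mono (ha : 0 < a) (T : S →ₐ[k] S) (hT : ∀ s, T (d.σ s) = d.σ (T s)) (u : k) (s : S)
    (l : ℕ) : d.extAlg ha T hT u (d.ι s * d.x ^ l) = u ^ l • (d.ι (T s) * d.x ^ l) :=
  d.extLin_mono T.toLinearMap u s l

lemma extAlg_apply (ha : 0 < a) (T : S →ₐ[k] S) (hT : ∀ s, T (d.σ s) = d.σ (T s)) (u : k) (r : R) :
    d.extAlg ha T hT u r = ∑ j : Fin a, u ^ (j : ℕ) • (d.ι (T (d.coef r j)) * d.x ^ (j : ℕ)) := rfl

lemma extAlg_ι (ha : 0 < a) (T : S →ₐ[k] S) (hT : ∀ s, T (d.σ s) = d.σ (T s)) (u : k) (s : S) :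
    d.extAlg ha T hT u (d.ι s) = d.ι (T s) := by
  have := d.extAlg_mono ha T hT u s 0
  simpa using this

lemma extAlg_x (ha : 0 < a) (T : S →ₐ[k] S) (hT : ∀ s, T (d.σ s) = d.σ (T s)) (u : k) :
    d.extAlg ha T hT u d.x = u • d.x := by
  have := d.extAlg_mono ha T hT u 1 1
  simpa using this

end OreData

end Vale.Agent.Lib.P195.Ore
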