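import Vale.Agent.Lib.P195.Ore.Coind

/-!
Modules over a truncated Ore extension whose syzygies are projective over `S` have syzygies of
bounded dimension.
-/

set_option linter.style.haveILetI false
set_option linter.unusedVariables false
set_option linter.unusedSectionVars false

open CategoryTheory Abelian Module

namespace Vale.Agent.Lib.P195.Ore

open Vale.Agent.Lib.P176 Vale.Agent.Lib.P195

universe u v

section LinAlg

variable {k : Type v} [Field k] {V V' : Type u} [AddCommGroup V] [Module k V] [AddCommGroup V']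
  [Module k V'] [FiniteDimensional k V] [FiniteDimensional k V']

lemma quot_range_finrank (A : V →ₗ[k] V) :
    finrank k (V ⧸ LinearMap.range A) = finrank k (LinearMap.ker A) := by
  have h1 := LinearMap.finrank_range_add_finrank_ker A
  have h2 := Submodule.finrank_quotient_add_finrank (LinearMap.range A)
  omega

lemma eNum_le_of_inj (f : V →ₗ[k] V') (hf : Function.Injective f) (A : V →ₗ[k] V)
    (A' : V' →ₗ[k] V') (hc : ∀ v, f (A v) = A' (f v)) :
    finrank k (V ⧸ LinearMap.range A) ≤ finrank k (V' ⧸ LinearMap.range A') := by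
  rw [quot_range_finrank, quot_range_finrank]
  have hmem : ∀ v ∈ LinearMap.ker A, f v ∈ LinearMap.ker A' := by
    intro v hv
    rw [LinearMap.mem_ker] at hv ⊢
    rw [← hc, hv, map_zero]
  let g : LinearMap.ker A →ₗ[k] LinearMap.ker A' := f.restrict hmem
  refine LinearMap.finrank_le_finrank_of_injective (f := g) ?_
  intro a b hab
  apply Subtype.ext
  apply hf
  exact congrArg Subtype.val hab

lemma eNum_le_of_surj (π : V →ₗ[k] V') (hπ : Function.Surjective π) (A : V →ₗ[k] V)
    (A' : V' →ₗ[k] V') (hc : ∀ v, π (A v) = A' (π v))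
    (hker : LinearMap.ker π ≤ LinearMap.range A) :
    finrank k (V ⧸ LinearMap.range A) ≤ finrank k (V' ⧸ LinearMap.range A') := by
  have hle : LinearMap.range A ≤ (LinearMap.range A').comap π := by
    rintro _ ⟨v, rfl⟩
    exact ⟨π v, (hc v).symm⟩
  let Q := Submodule.mapQ (LinearMap.range A) (LinearMap.range A') π hle
  refine LinearMap.finrank_le_finrank_of_injective (f := Q) ?_
  rw [injective_iff_map_eq_zero]
  intro y hy
  obtain ⟨v, rfl⟩ := Submodule.Quotient.mk_surjective _ y
  have h1 : π v ∈ LinearMap.range A' := (Submodule.Quotient.mk_eq_zero _).mp hy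
  obtain ⟨w', hw'⟩ := h1
  obtain ⟨w, rfl⟩ := hπ w'
  rw [← hc] at hw'
  have h2 : v - A w ∈ LinearMap.ker π := by
    rw [LinearMap.mem_ker, map_sub, hw', sub_self]
  obtain ⟨u, hu⟩ := hker h2
  refine (Submodule.Quotient.mk_eq_zero _).mpr ⟨u + w, ?_⟩
  rw [map_add, hu]
  abel

end LinAlg

variable {k : Type v} {S R : Type u} [Field k] [Ring S] [Algebra k S] [Ring R] [Algebra k R]
  {a : ℕ} (d : OreData k S R a)

namespace OreData

lemma σ_mem_jacobson {j : S} (hj : j ∈ Ring.jacobson S) : d.σ j ∈ Ring.jacobson S := by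
  haveI : RingHomSurjective (d.σ : S →+* S) := ⟨d.σ.surjective⟩
  exact Ring.map_jacobson_le (d.σ : S →+* S) (Submodule.mem_map_of_mem hj)

/-- The generators of the ideal generated by the radical of `S`. -/
def radGen : Set R := {z : R | ∃ j ∈ Ring.jacobson S, ∃ r : R, z = d.ι j * r}

lemma left_closed (c : R) (z : R) (hz : z ∈ AddSubgroup.closure d.radGen) :
    c * z ∈ AddSubgroup.closure d.radGen := by
  refine d.gen_induction (P := fun c => ∀ z ∈ AddSubgroup.closure d.radGen,
    c * z ∈ AddSubgroup.closure d.radGen) ?_ ?_ ?_ ?_ c z hz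
  · intro s z hz
    refine AddSubgroup.closure_induction (p := fun z _ => d.ι s * z ∈ AddSubgroup.closure d.radGen)
      ?_ ?_ ?_ ?_ hz
    · rintro _ ⟨j, hj, r, rfl⟩
      refine AddSubgroup.subset_closure ⟨s * j, (Ring.jacobson S).mul_mem_left s hj, r, ?_⟩
      rw [map_mul, mul_assoc]
    · rw [mul_zero]
      exact zero_mem _
    · intro a b _ _ ha hb
      rw [mul_add]
      exact add_mem ha hb
    · intro a _ ha
      rw [mul_neg]
      exact neg_mem ha
  · intro z hz
    refine AddSubgroup.closure_induction (p := fun z _ => d.x * z ∈ AddSubgroup.closure d.radGen)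
      ?_ ?_ ?_ ?_ hz
    · rintro _ ⟨j, hj, r, rfl⟩
      refine AddSubgroup.subset_closure ⟨d.σ j, d.σ_mem_jacobson hj, d.x * r, ?_⟩
      rw [← mul_assoc, d.comm, mul_assoc]
    · rw [mul_zero]
      exact zero_mem _
    · intro a b _ _ ha hb
      rw [mul_add]
      exact add_mem ha hb
    · intro a _ ha
      rw [mul_neg]
      exact neg_mem ha
  · intro r r' h h' z hz
    rw [add_mul]
    exact add_mem (h z hz) (h' z hz)
  · intro r r' h h' z hz
    rw [mul_assoc]
    exact h _ (h' z hz)

/-- The ideal of `R` generated by the radical of `S`. -/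
def radIdeal : Ideal R where
  carrier := AddSubgroup.closure d.radGen
  add_mem' := fun ha hb => add_mem ha hb
  zero_mem' := zero_mem _
  smul_mem' := fun c z hz => d.left_closed c z hz

instance : d.radIdeal.IsTwoSided where
  mul_mem_of_left := fun {z} b hz => by
    refine AddSubgroup.closure_induction (p := fun z _ => z * b ∈ AddSubgroup.closure d.radGen)
      ?_ ?_ ?_ ?_ hz
    · rintro _ ⟨j, hj, r, rfl⟩
      exact AddSubgroup.subset_closure ⟨j, hj, r * b, by rw [mul_assoc]⟩
    · rw [zero_mul]
      exact zero_mem _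
    · intro a c _ _ ha hc
      rw [add_mul]
      exact add_mem ha hc
    · intro a _ ha
      rw [neg_mul]
      exact neg_mem ha

lemma mem_radIdeal (y : R) : y ∈ d.radIdeal ↔ y ∈ AddSubgroup.closure
    {z : R | ∃ j ∈ Ring.jacobson S, ∃ r : R, z = d.ιr j * r} := Iff.rfl

lemma ι_mem_radIdeal {j : S} (hj : j ∈ Ring.jacobson S) : d.ι j ∈ d.radIdeal :=
  AddSubgroup.subset_closure ⟨j, hj, 1, by simp⟩

lemma exists_decomp (ha : 0 < a) (r : R) : ∃ y, r = d.ι (d.coef r ⟨0, ha⟩) + y * d.x := by
  obtain ⟨b, rfl⟩ : ∃ b, a = b + 1 := ⟨a - 1, by omega⟩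
  refine ⟨∑ j : Fin b, d.ι (d.coef r j.succ) * d.x ^ (j : ℕ), ?_⟩
  conv_lhs => rw [d.coef_spec r]
  rw [Fin.sum_univ_succ, Finset.sum_mul]
  congr 1
  · simp
  · refine Finset.sum_congr rfl fun j _ => ?_
    rw [mul_assoc, ← pow_succ]
    rfl

lemma coef_zero_mul_x (ha : 0 < a) (y : R) : d.coef (y * d.x) ⟨0, ha⟩ = 0 := by
  classical
  conv_lhs => rw [d.coef_spec y, Finset.sum_mul]
  have hs : ∀ (I : Finset (Fin a)) (f : Fin a → R),
      d.coef (∑ j ∈ I, f j) ⟨0, ha⟩ = ∑ j ∈ I, d.coef (f j) ⟨0, ha⟩ := by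
    intro I f
    have h1 : d.coef (∑ j ∈ I, f j) = ∑ j ∈ I, d.coef (f j) := map_sum d.Φ.symm f I
    rw [h1, Finset.sum_apply]
  rw [hs]
  refine Finset.sum_eq_zero fun j _ => ?_
  rw [mul_assoc, ← pow_succ]
  by_cases hj : (j : ℕ) + 1 < a
  · have := d.ι_mul_pow_coef (d.coef y j) ⟨(j : ℕ) + 1, hj⟩
    simp only [] at this
    rw [this, Pi.single_eq_of_ne]
    intro h
    have := congrArg Fin.val h
    simp at this
  · rw [d.pow_eq_zero _ (by omega), mul_zero]
    have : d.coef 0 = 0 := map_zero d.Φ.symm
    rw [this]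
    rfl

lemma coef_ι (ha : 0 < a) (s : S) : d.coef (d.ι s) ⟨0, ha⟩ = s := by
  classical
  have := d.ι_mul_pow_coef s ⟨0, ha⟩
  simp only [pow_zero, mul_one] at this
  rw [this]
  simp

/-- The ring homomorphism killing `x`. -/
noncomputable def epsHom (ha : 0 < a) : R →+* S where
  toFun r := d.coef r ⟨0, ha⟩
  map_one' := by
    have := d.coef_ι ha 1
    simpa using this
  map_zero' := by
    have : d.coef 0 = 0 := map_zero d.Φ.symm
    rw [this]
    rfl
  map_add' r r' := by
    rw [d.coef_add]
    rfl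
  map_mul' r r' := by
    obtain ⟨y, hy⟩ := d.exists_decomp ha r
    obtain ⟨y', hy'⟩ := d.exists_decomp ha r'
    set s := d.coef r ⟨0, ha⟩
    set s' := d.coef r' ⟨0, ha⟩
    have h : r * r' = d.ι (s * s') + (d.ι s * y' + y * d.ι (d.σ s') + y * d.x * y') * d.x := by
      rw [hy, hy']
      simp only [hy.symm, hy'.symm]
      rw [map_mul]
      conv_lhs => rw [hy, hy']
      simp only [add_mul, mul_add, mul_assoc, d.comm]
      abel
    rw [h, d.coef_add, Pi.add_apply, d.coef_ι, d.coef_zero_mul_x, add_zero]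

lemma coef_zero_mem (ha : 0 < a) {r : R} (hr : r ∈ Ring.jacobson R) :
    d.coef r ⟨0, ha⟩ ∈ Ring.jacobson S := by
  haveI : RingHomSurjective (d.epsHom ha) := ⟨fun s => ⟨d.ι s, d.coef_ι ha s⟩⟩
  exact Ring.map_jacobson_le (d.epsHom ha) (Submodule.mem_map_of_mem hr)

section Modules

variable {N : Type u} [AddCommGroup N] [Module R N]

/-- Elements of the radical are multiples of `x` modulo the ideal. -/
lemma rad_decomp (ha : 0 < a) (z : N) (hz : z ∈ rad R N) :
    ∃ q : N, ∃ w ∈ (d.radIdeal • (⊤ : Submodule R N)), z = d.x • q + w := by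
  refine Submodule.smul_induction_on hz ?_ ?_
  · intro r hr p _
    obtain ⟨y, hy⟩ := d.exists_decomp ha r
    obtain ⟨y', hy'⟩ := d.exists_mul_x y
    refine ⟨y' • p, d.ι (d.coef r ⟨0, ha⟩) • p,
      Submodule.smul_mem_smul (d.ι_mem_radIdeal (d.coef_zero_mem ha hr)) Submodule.mem_top, ?_⟩
    conv_lhs => rw [hy, add_smul, hy', mul_smul]
    abel
  · rintro z z' ⟨q, w, hw, rfl⟩ ⟨q', w', hw', rfl⟩
    refine ⟨q + q', w + w', add_mem hw hw', ?_⟩
    rw [smul_add]
    abel

end Modules

section Num

/-- Multiplication by `x`. -/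
def xMap (V : Type u) [AddCommGroup V] [Module R V] [Module k V] [IsScalarTower k R V] : V →ₗ[k] V where
  toFun v := d.x • v
  map_add' := smul_add _
  map_smul' c v := smul_comm _ _ _

variable (N : Type u) [AddCommGroup N] [Module R N] [Module k N] [IsScalarTower k R N]

/-- The reduction of a module. -/
abbrev Red : Type u := N ⧸ (d.radIdeal • (⊤ : Submodule R N))

/-- The number of generators, as a dimension. -/
noncomputable def eN : ℕ :=
  finrank k (d.Red N ⧸ LinearMap.range (d.xMap (d.Red N)))

variable {N}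

/-- The map induced on reductions. -/
noncomputable def redL {N' : Type u} [AddCommGroup N'] [Module R N'] [Module k N']
    [IsScalarTower k R N'] (f : N →ₗ[R] N') : d.Red N →ₗ[k] d.Red N' :=
  (Submodule.mapQ (d.radIdeal • (⊤ : Submodule R N)) (d.radIdeal • (⊤ : Submodule R N')) f (by
    rw [Submodule.smul_le]
    intro r hr x _
    rw [Submodule.mem_comap, map_smul]
    exact Submodule.smul_mem_smul hr Submodule.mem_top)).restrictScalars k

lemma redL_mk {N' : Type u} [AddCommGroup N'] [Module R N'] [Module k N']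
    [IsScalarTower k R N'] (f : N →ₗ[R] N') (y : N) :
    d.redL f (Submodule.Quotient.mk y) = Submodule.Quotient.mk (f y) := rfl

lemma redL_x {N' : Type u} [AddCommGroup N'] [Module R N'] [Module k N']
    [IsScalarTower k R N'] (f : N →ₗ[R] N') (v : d.Red N) :
    d.redL f (d.xMap (d.Red N) v) = d.xMap (d.Red N') (d.redL f v) := by
  obtain ⟨y, rfl⟩ := Submodule.Quotient.mk_surjective _ v
  change (Submodule.Quotient.mk (f (d.x • y)) : d.Red N') = d.x • (Submodule.Quotient.mk (f y) : d.Red N')
  rw [map_smul]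
  rfl

instance [Module.Finite k N] : Module.Finite k (d.Red N) := by
  let q : N →ₗ[k] d.Red N :=
    { toFun := fun n => Submodule.Quotient.mk n
      map_add' := fun _ _ => rfl
      map_smul' := fun _ _ => rfl }
  refine Module.Finite.of_surjective q fun y => ?_
  obtain ⟨n, rfl⟩ := Submodule.Quotient.mk_surjective _ y
  exact ⟨n, rfl⟩

end Num

section Naka

variable (N : Type u) [AddCommGroup N] [Module R N] [Module k N] [IsScalarTower k R N]
  [Module.Finite k N]

/-- The Nakayama bound. -/
lemma finrank_le_eN (ha : 0 < a) [Module.Finite k R]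
    (hfin : Module.Finite S (res d.ιr (ModuleCat.of R R))) :
    finrank k N ≤ d.eN N * finrank k R := by
  classical
  haveI : Module.Finite R N := Module.Finite.of_restrictScalars_finite k R N
  set W := d.radIdeal • (⊤ : Submodule R N) with hW
  let Q := d.Red N ⧸ LinearMap.range (d.xMap (d.Red N))
  let b := Module.finBasis k Q
  let q : N → Q := fun n => Submodule.Quotient.mk (Submodule.Quotient.mk n)
  have hqs : Function.Surjective q := by
    intro y
    obtain ⟨v, rfl⟩ := Submodule.Quotient.mk_surjective _ y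
    obtain ⟨n, rfl⟩ := Submodule.Quotient.mk_surjective _ v
    exact ⟨n, rfl⟩
  choose w hw using fun i => hqs (b i)
  let Y : Submodule R N := Submodule.span R (Set.range w)
  -- first step
  have h1 : ∀ n : N, ∃ y ∈ Y, ∃ n' : N, ∃ u ∈ W, n = y + d.x • n' + u := by
    intro n
    let y : N := ∑ i, (b.repr (q n) i) • w i
    have hy : y ∈ Y := by
      refine Submodule.sum_mem _ fun i _ => ?_
      have : b.repr (q n) i • w i = algebraMap k R (b.repr (q n) i) • w i :=
        (algebraMap_smul R _ _).symm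
      rw [this]
      exact Y.smul_mem _ (Submodule.subset_span ⟨i, rfl⟩)
    have hqy : q y = q n := by
      have hqlin : ∀ (I : Finset (Fin (finrank k Q))) (f : Fin (finrank k Q) → k),
          q (∑ i ∈ I, f i • w i) = ∑ i ∈ I, f i • b i := by
        intro I f
        induction I using Finset.induction_on with
        | empty =>
          simp only [Finset.sum_empty]
          rfl
        | insert i I hi ih =>
          rw [Finset.sum_insert hi, Finset.sum_insert hi, ← ih, ← hw i]
          rfl
      have := hqlin Finset.univ (fun i => b.repr (q n) i)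
      simp only [y]
      rw [this, b.sum_repr]
    have h0 : q (n - y) = 0 := by
      have : q (n - y) = q n - q y := rfl
      rw [this, hqy, sub_self]
    have h2 : (Submodule.Quotient.mk (n - y) : d.Red N) ∈ LinearMap.range (d.xMap (d.Red N)) :=
      (Submodule.Quotient.mk_eq_zero _).mp h0
    obtain ⟨v, hv⟩ := h2
    obtain ⟨n', rfl⟩ := Submodule.Quotient.mk_surjective _ v
    have h3 : (Submodule.Quotient.mk (d.x • n') : d.Red N) = Submodule.Quotient.mk (n - y) := hv
    have h4 : n - y - d.x • n' ∈ W := by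
      have := (Submodule.Quotient.eq _).mp h3.symm
      exact this
    refine ⟨y, hy, n', n - y - d.x • n', h4, ?_⟩
    abel
  -- iteration
  have h2 : ∀ (c : ℕ) (n : N), ∃ y ∈ Y, ∃ n' : N, ∃ u ∈ W, n = y + d.x ^ c • n' + u := by
    intro c
    induction c with
    | zero =>
      intro n
      exact ⟨0, zero_mem _, n, 0, zero_mem _, by simp⟩
    | succ c ih =>
      intro n
      obtain ⟨y, hy, n', u, hu, rfl⟩ := ih n
      obtain ⟨y', hy', n'', u', hu', rfl⟩ := h1 n'
      refine ⟨y + d.x ^ c • y', add_mem hy (Y.smul_mem _ hy'), n'', u + d.x ^ c • u',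
        add_mem hu (W.smul_mem _ hu'), ?_⟩
      rw [smul_add, smul_add, pow_succ, mul_smul]
      abel
  have h3 : ∀ n : N, ∃ y ∈ Y, ∃ u ∈ W, n = y + u := by
    intro n
    obtain ⟨y, hy, n', u, hu, h⟩ := h2 a n
    refine ⟨y, hy, u, hu, ?_⟩
    rw [h, d.nil, zero_smul, add_zero]
  -- Nakayama
  have hY : Y = ⊤ := by
    rw [← Submodule.Quotient.subsingleton_iff]
    let Nq : ModuleCat.{u} R := ModuleCat.of R (N ⧸ Y)
    haveI : Module.Finite R Nq := inferInstanceAs (Module.Finite R (N ⧸ Y))
    have hq : Subsingleton (red d.radIdeal Nq) := by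
      refine ⟨fun a b => ?_⟩
      have hz : ∀ c : red d.radIdeal Nq, c = 0 := by
        intro c
        obtain ⟨z, rfl⟩ := toRed_surjective d.radIdeal Nq c
        refine (toRed_eq_zero d.radIdeal Nq z).mpr ?_
        obtain ⟨n, rfl⟩ := Submodule.Quotient.mk_surjective _ z
        obtain ⟨y, hy, u, hu, rfl⟩ := h3 n
        have h5 : (Submodule.Quotient.mk (y + u) : N ⧸ Y) = Submodule.Quotient.mk u := by
          rw [Submodule.Quotient.mk_add, (Submodule.Quotient.mk_eq_zero _).mpr hy, zero_add]
        change (Submodule.Quotient.mk (y + u) : N ⧸ Y) ∈ (d.radIdeal • (⊤ : Submodule R (N ⧸ Y)))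
        rw [h5]
        have h6 : W.map Y.mkQ ≤ d.radIdeal • (⊤ : Submodule R (N ⧸ Y)) := by
          rw [hW, Submodule.map_smul'']
          exact Submodule.smul_mono le_rfl le_top
        exact h6 (Submodule.mem_map_of_mem hu)
      rw [hz a, hz b]
    exact subsingleton_of_red d.ιr d.radIdeal (d.mem_radIdeal) hfin Nq hq
  -- the bound
  let φ : (Fin (finrank k Q) → R) →ₗ[R] N := Fintype.linearCombination R w
  have hφ : Function.Surjective φ := by
    rw [← LinearMap.range_eq_top, Fintype.range_linearCombination]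
    exact hY
  have hle := LinearMap.finrank_le_finrank_of_surjective (f := φ.restrictScalars k) hφ
  refine hle.trans (le_of_eq ?_)
  rw [Module.finrank_pi_fintype]
  simp only [Finset.sum_const, Finset.card_univ, Fintype.card_fin, smul_eq_mul]
  rfl

end Naka

section Chain

/-- The comparison along a step of a minimal resolution. -/
lemma eN_step (ha : 0 < a) [Module.Finite k R] (s : Syz R) (i : ℕ)
    [Module k (s.X i)] [IsScalarTower k R (s.X i)] [Module k (s.X (i + 1))]
    [IsScalarTower k R (s.X (i + 1))] [Module k (s.P i)] [IsScalarTower k R (s.P i)]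
    [Module.Finite k (s.X i)] [Module.Finite k (s.X (i + 1))] [Module.Finite k (s.P i)]
    (hp : Module.Projective S (res d.ιr (s.X i))) :
    d.eN (s.X (i + 1)) ≤ d.eN (s.P i) ∧ d.eN (s.P i) ≤ d.eN (s.X i) := by
  constructor
  · refine eNum_le_of_inj (d.redL (s.ι i).hom) ?_ _ _ (d.redL_x (s.ι i).hom)
    rw [injective_iff_map_eq_zero]
    intro y hy
    obtain ⟨x, rfl⟩ := Submodule.Quotient.mk_surjective _ y
    have h1 : (s.ι i).hom x ∈ (d.radIdeal • (⊤ : Submodule R (s.P i))) :=
      (Submodule.Quotient.mk_eq_zero _).mp hy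
    exact (Submodule.Quotient.mk_eq_zero _).mpr
      (mem_smul_of_split d.ιr d.radIdeal d.mem_radIdeal s i hp x h1)
  · refine eNum_le_of_surj (d.redL (s.π i).hom) ?_ _ _ (d.redL_x (s.π i).hom) ?_
    · intro y
      obtain ⟨x, rfl⟩ := Submodule.Quotient.mk_surjective _ y
      obtain ⟨p, rfl⟩ := s.π_surjective i x
      exact ⟨Submodule.Quotient.mk p, rfl⟩
    · intro v hv
      obtain ⟨p, rfl⟩ := Submodule.Quotient.mk_surjective _ v
      have h1 : (s.π i).hom p ∈ (d.radIdeal • (⊤ : Submodule R (s.X i))) :=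
        (Submodule.Quotient.mk_eq_zero _).mp hv
      have hmap : (d.radIdeal • (⊤ : Submodule R (s.X i))) =
          (d.radIdeal • (⊤ : Submodule R (s.P i))).map (s.π i).hom := by
        rw [Submodule.map_smul'', Submodule.map_top,
          LinearMap.range_eq_top.mpr (s.π_surjective i)]
      rw [hmap] at h1
      obtain ⟨p', hp', hpp⟩ := h1
      have h0 : (s.π i).hom (p - p') = 0 := by rw [map_sub, hpp, sub_self]
      obtain ⟨x, hx⟩ := (s.exact_ι_π i _).mp h0
      have hrad := s.minimal i (LinearMap.mem_range_self _ x)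
      obtain ⟨q, w, hw, hq⟩ := d.rad_decomp ha _ hrad
      refine ⟨Submodule.Quotient.mk q, ?_⟩
      change (Submodule.Quotient.mk (d.x • q) : d.Red (s.P i)) = Submodule.Quotient.mk p
      refine ((Submodule.Quotient.eq _).mpr ?_)
      have h2 : d.x • q - p = - (w + p') := by
        have h3 : p - p' = d.x • q + w := by rw [← hx, hq]
        have h4 : d.x • q = p - p' - w := by rw [h3]; abel
        rw [h4]
        abel
      rw [h2]
      exact neg_mem (add_mem hw hp')

end Chain

end OreData

end Vale.Agent.Lib.P195.Ore
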