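import Vale.Agent.Lib.P195.Ore.Filt
import Vale.Agent.Lib.P195.Bounded

/-!
Vanishing of `Ext` over `S` for restrictions of modules over `R`.
-/

set_option linter.style.haveILetI false
set_option linter.unusedVariables false
set_option linter.unusedSectionVars false

open CategoryTheory Abelian Module Polynomial

namespace Vale.Agent.Lib.P195.Ore

open Vale.Agent.Lib.P176 Vale.Agent.Lib.P195

universe u v

section General

variable {A : Type u} [Ring A]

lemma ext_zero_of_subsingleton (Z Y : ModuleCat.{u} A) [Subsingleton Y] (n : ℕ) (e : Ext Z Y n) :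
    e = 0 := by
  have hz : Limits.IsZero Y := ModuleCat.isZero_of_subsingleton Y
  have h0 : (𝟙 Y : Y ⟶ Y) = 0 := hz.eq_of_tgt _ _
  rw [← Ext.comp_mk₀_id e, h0, Ext.mk₀_zero, Ext.comp_zero]

lemma ext_up (r : PRes A) (N : ModuleCat.{u} A) (i j : ℕ) (h : ∀ e : Ext (r.X (i + 1)) N j, e = 0)
    (e : Ext (r.X i) N (j + 1)) : e = 0 := by
  haveI := r.proj i
  obtain ⟨x₁, rfl⟩ := Ext.contravariant_sequence_exact₃ (r.sexact i) N e
    (Ext.eq_zero_of_projective _) (n₀ := j) (by omega)
  rw [h x₁, Ext.comp_zero]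

lemma ext_up_iter (r : PRes A) (N : ModuleCat.{u} A) (i c : ℕ)
    (h : ∀ e : Ext (r.X (i + c)) N 1, e = 0) (e : Ext (r.X i) N (c + 1)) : e = 0 := by
  induction c generalizing i with
  | zero => exact h e
  | succ c ih =>
    refine ext_up r N i (c + 1) ?_ e
    refine ih (i + 1) ?_
    have e' : i + 1 + c = i + (c + 1) := by omega
    rw [e']
    exact h

lemma ext_one_of_extend (r : PRes A) (N : ModuleCat.{u} A) (i : ℕ)
    (h : ∀ f : r.X (i + 1) ⟶ N, ∃ g : r.P i ⟶ N, r.ι i ≫ g = f) (e : Ext (r.X i) N 1) : e = 0 := by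
  haveI := r.proj i
  obtain ⟨x₁, rfl⟩ := Ext.contravariant_sequence_exact₃ (r.sexact i) N e
    (Ext.eq_zero_of_projective _) (n₀ := 0) (by omega)
  obtain ⟨f, rfl⟩ := (Ext.mk₀_bijective _ _).2 x₁
  obtain ⟨g, rfl⟩ := h f
  rw [← Ext.mk₀_comp_mk₀, ← Ext.comp_assoc_of_third_deg_zero]
  have := (r.sexact i).extClass_comp
  change (r.sexact i).extClass.comp (Ext.mk₀ (r.ι i)) (add_zero 1) = 0 at this
  rw [this, Ext.zero_comp]

end General

section Res

variable {U R : Type u} [Ring U] [Ring R] (ι : U →+* R)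

/-- The general transfer: a pair `(Q, ε)` with a universal property gives the vanishing of `Ext`
over `U`. -/
lemma ext_res (hR : Module.Projective U (res ι (ModuleCat.of R R))) (s : Syz R) (n : ℕ)
    (Q : ModuleCat.{u} R) (N : ModuleCat.{u} U) (ε : res ι Q ⟶ N)
    (hε : ∀ (Y : ModuleCat.{u} R) (g : res ι Y ⟶ N), ∃ F : Y ⟶ Q,
      (ModuleCat.restrictScalars ι).map F ≫ ε = g)
    (hQ : ∀ e : Ext (s.X 0) Q (n + 1), e = 0) (e : Ext (res ι (s.X 0)) N (n + 1)) : e = 0 := by
  let r := resPRes ι hR s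
  have h1 : ∀ e : Ext (r.X n) N 1, e = 0 := by
    intro e
    refine ext_one_of_extend r N n ?_ e
    intro f
    obtain ⟨F, hF⟩ := hε (s.X (n + 1)) f
    have hn : ∀ e : Ext (s.X n) Q (0 + 1), e = 0 := by
      intro e
      refine s.ext_first_iter Q n 0 ?_ e
      have e' : 0 + 1 + n = n + 1 := by omega
      rw [e']
      exact hQ
    obtain ⟨g, hg⟩ := extend_of_ext_vanish (S := s.sc n) (s.sexact n) Q hn F
    refine ⟨(ModuleCat.restrictScalars ι).map g ≫ ε, ?_⟩
    change (ModuleCat.restrictScalars ι).map (s.ι n) ≫ (ModuleCat.restrictScalars ι).map g ≫ ε = f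
    rw [← Category.assoc, ← Functor.map_comp]
    have hg' : s.ι n ≫ g = F := hg
    rw [hg', hF]
  refine ext_up_iter r N 0 n ?_ e
  have e' : 0 + n = n := by omega
  rw [e']
  exact h1

end Res

variable {k : Type v} {S R : Type u} [Field k] [Ring S] [Algebra k S] [Ring R] [Algebra k R]
  {a : ℕ} (d : OreData k S R a)

namespace OreData

section CoindExt

variable {M : Type u} [AddCommGroup M] [Module R M] [Module k M] [IsScalarTower k R M]
variable (ζ : ℕ → k)

/-- The step of the filtration as a statement on `Ext`. -/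
lemma ext_filt (hζ : ∀ t, ζ t ≠ 0) (hP : PP ζ a = X ^ a - 1)
    (htw : ∀ j < a, ∃ ψ : M ≃+ M, (∀ s m, ψ (d.ι s • m) = d.ι ((d.σ ^ j) s) • ψ m) ∧
      ∀ m, ψ (d.x • m) = (ζ j)⁻¹ • d.x • ψ m)
    (Z : ModuleCat.{u} R) (n : ℕ) (h : ∀ e : Ext Z (ModuleCat.of R M) n, e = 0) (j : ℕ)
    (hj : j ≤ a) (e : Ext Z (ModuleCat.of R (d.filt (M := M) ζ hζ j)) n) : e = 0 := by
  induction j with
  | zero =>
    haveI : Subsingleton (d.filt (M := M) ζ hζ 0) := by
      refine ⟨fun f g => ?_⟩
      apply Subtype.ext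
      rw [d.eq_zero_of_nn ζ hζ f.1 (fun i => f.2 i (by omega)),
        d.eq_zero_of_nn ζ hζ g.1 (fun i => g.2 i (by omega))]
    haveI : Subsingleton (ModuleCat.of R (d.filt (M := M) ζ hζ 0)) :=
      inferInstanceAs (Subsingleton (d.filt (M := M) ζ hζ 0))
    exact ext_zero_of_subsingleton _ _ _ e
  | succ j ih =>
    obtain ⟨ψ, hι, hx⟩ := htw j (by omega)
    have hle : d.filt (M := M) ζ hζ j ≤ d.filt (M := M) ζ hζ (j + 1) :=
      fun f hf i hi => hf i (by omega)
    let F : ModuleCat.of R (d.filt (M := M) ζ hζ j) ⟶ ModuleCat.of R (d.filt (M := M) ζ hζ (j + 1)) :=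
      ModuleCat.ofHom (Submodule.inclusion hle)
    let G : ModuleCat.of R (d.filt (M := M) ζ hζ (j + 1)) ⟶ ModuleCat.of R M :=
      ModuleCat.ofHom (d.nu ζ hζ j ψ hι hx)
    have hFG : Function.Exact F.hom G.hom := by
      intro f
      change d.nu ζ hζ j ψ hι hx f = 0 ↔ _
      rw [d.nu_exact ζ hζ j ψ hι hx f]
      constructor
      · intro hf
        exact ⟨⟨f.1, hf⟩, rfl⟩
      · rintro ⟨g, rfl⟩
        exact g.2
    have hw : F ≫ G = 0 := by
      ext f
      exact (hFG _).mpr ⟨f, rfl⟩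
    have hS : (ShortComplex.mk F G hw).ShortExact :=
      shortExact_of_functions F G hw (Submodule.inclusion_injective hle)
        (d.nu_surjective ζ hζ hP j (by omega) ψ hι hx) hFG
    obtain ⟨x₁, rfl⟩ := Ext.covariant_sequence_exact₂ Z hS e (h _)
    rw [ih (by omega) x₁, Ext.zero_comp]

/-- The vanishing of `Ext` into the coinduced module. -/
lemma ext_cind (hζ : ∀ t, ζ t ≠ 0) (hP : PP ζ a = X ^ a - 1)
    (htw : ∀ j < a, ∃ ψ : M ≃+ M, (∀ s m, ψ (d.ι s • m) = d.ι ((d.σ ^ j) s) • ψ m) ∧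
      ∀ m, ψ (d.x • m) = (ζ j)⁻¹ • d.x • ψ m)
    (Z : ModuleCat.{u} R) (n : ℕ) (h : ∀ e : Ext Z (ModuleCat.of R M) n, e = 0)
    (e : Ext Z (ModuleCat.of R (Cind d.ιr M)) n) : e = 0 := by
  have htop : ∀ f : Cind d.ιr M, f ∈ d.filt (M := M) ζ hζ a :=
    fun f i hi => d.nn_ge ζ hP i hi f
  let q : ModuleCat.of R (d.filt (M := M) ζ hζ a) ⟶ ModuleCat.of R (Cind d.ιr M) :=
    ModuleCat.ofHom (d.filt (M := M) ζ hζ a).subtype
  let r : ModuleCat.of R (Cind d.ιr M) ⟶ ModuleCat.of R (d.filt (M := M) ζ hζ a) :=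
    ModuleCat.ofHom (LinearMap.codRestrict _ LinearMap.id htop)
  have hrq : r ≫ q = 𝟙 _ := by
    ext f
    rfl
  exact ext_retract_second r q hrq (d.ext_filt ζ hζ hP htw Z n h a le_rfl) e

/-- The evaluation on the coinduced module, as a linear map. -/
noncomputable def evL : res d.ιr (ModuleCat.of R (Cind d.ιr M)) →ₗ[S] res d.ιr (ModuleCat.of R M) where
  toFun := fun f => (show Cind d.ιr M from f).1 1
  map_add' := fun f g => rfl
  map_smul' := fun s f => by
    change (show Cind d.ιr M from f).1 (1 * d.ιr s) = d.ιr s • (show Cind d.ιr M from f).1 1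
    rw [one_mul, ← (show Cind d.ιr M from f).2 s 1, mul_one]

/-- The evaluation on the coinduced module. -/
noncomputable def evC : res d.ιr (ModuleCat.of R (Cind d.ιr M)) ⟶ res d.ιr (ModuleCat.of R M) :=
  ModuleCat.ofHom (X := res d.ιr (ModuleCat.of R (Cind d.ιr M))) (Y := res d.ιr (ModuleCat.of R M))
    (d.evL (M := M))

/-- The universal property of the coinduced module. -/
lemma evC_universal (Y : ModuleCat.{u} R) (g : res d.ιr Y ⟶ res d.ιr (ModuleCat.of R M)) :
    ∃ F : Y ⟶ ModuleCat.of R (Cind d.ιr M),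
      (ModuleCat.restrictScalars d.ιr).map F ≫ d.evC = g := by
  have hg : ∀ (s : S) (y : Y), g.hom (d.ιr s • y) = d.ιr s • g.hom y :=
    fun s y => g.hom.map_smul s y
  let g' : Y → M := fun y => g.hom y
  have hg0 : ∀ y y' : Y, g' (y + y') = g' y + g' y' := fun y y' => map_add g.hom y y'
  have hgz : g' 0 = 0 := map_zero g.hom
  let F₀ : Y → Cind d.ιr M := fun y =>
    ⟨{ toFun := fun r => g' (r • y)
       map_zero' := by rw [zero_smul, hgz]
       map_add' := fun r r' => by rw [add_smul, hg0] },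
      fun s r => by
        change g' ((d.ιr s * r) • y) = d.ιr s • g' (r • y)
        rw [mul_smul]
        exact hg s (r • y)⟩
  let F : Y →ₗ[R] Cind d.ιr M :=
    { toFun := F₀
      map_add' := fun y y' => by
        apply Subtype.ext
        ext r
        change g' (r • (y + y')) = g' (r • y) + g' (r • y')
        rw [smul_add, hg0]
      map_smul' := fun r y => by
        apply Subtype.ext
        ext r'
        change g' (r' • r • y) = g' ((r' * r) • y)
        rw [mul_smul] }
  refine ⟨ModuleCat.ofHom F, ?_⟩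
  have hy : ∀ y : Y, g' ((1 : R) • y) = g.hom y := fun y => by
    rw [one_smul]
  ext y
  exact hy y

end CoindExt

section Top

/-- The coefficient of the top power of `x`, as an additive map. -/
noncomputable def topA (ha : 0 < a) : R →+ S where
  toFun := fun r => d.coef r ⟨a - 1, by omega⟩
  map_zero' := by
    have : d.coef 0 = 0 := map_zero d.Φ.symm
    rw [this]
    rfl
  map_add' := fun r r' => by
    rw [d.coef_add]
    rfl

/-- The coefficient of the top power of `x`, as a linear map. -/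
noncomputable def topL (ha : 0 < a) : res d.ιr (ModuleCat.of R R) →ₗ[S] S where
  toFun := d.topA ha
  map_add' := map_add (d.topA ha)
  map_smul' := fun s r => d.coef_ι_mul s r _

/-- The coefficient of the top power of `x`. -/
noncomputable def topC (ha : 0 < a) : res d.ιr (ModuleCat.of R R) ⟶ ModuleCat.of S S :=
  ModuleCat.ofHom (X := res d.ιr (ModuleCat.of R R)) (Y := S) (d.topL ha)

lemma topA_mono (ha : 0 < a) (s : S) (l : ℕ) (hl : l < a) :
    d.topA ha (d.ι s * d.x ^ l) = if l = a - 1 then s else 0 := by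
  classical
  change d.coef (d.ι s * d.x ^ l) ⟨a - 1, by omega⟩ = _
  have h := d.ι_mul_pow_coef s ⟨l, hl⟩
  simp only [] at h
  rw [h]
  split_ifs with hc
  · subst hc
    simp
  · rw [Pi.single_eq_of_ne]
    intro h'
    exact hc (congrArg Fin.val h').symm

/-- The universal property of `R` over `S`: the top coefficient. -/
lemma topC_universal (ha : 0 < a) (Y : ModuleCat.{u} R) (g : res d.ιr Y ⟶ ModuleCat.of S S) :
    ∃ F : Y ⟶ ModuleCat.of R R, (ModuleCat.restrictScalars d.ιr).map F ≫ d.topC ha = g := by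
  have hg : ∀ (s : S) (y : Y), g.hom (d.ιr s • y) = s * g.hom y :=
    fun s y => g.hom.map_smul s y
  let g' : Y → S := fun y => g.hom y
  have hg0 : ∀ y y' : Y, g' (y + y') = g' y + g' y' := fun y y' => map_add g.hom y y'
  have hgz : g' 0 = 0 := map_zero g.hom
  -- the terms of the map
  let T : ℕ → Y → R := fun i y => d.ι ((d.σ ^ i).symm (g' (d.x ^ i • y)))
  have hTadd : ∀ i y y', T i (y + y') = T i y + T i y' := by
    intro i y y'
    simp only [T]
    rw [smul_add, hg0, map_add, map_add]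
  have hTι : ∀ i s y, T i (d.ι s • y) = d.ι s * T i y := by
    intro i s y
    simp only [T]
    rw [← mul_smul, d.pow_comm, mul_smul]
    have h1 : g' (d.ι ((d.σ ^ i) s) • d.x ^ i • y) = (d.σ ^ i) s * g' (d.x ^ i • y) :=
      hg ((d.σ ^ i) s) (d.x ^ i • y)
    rw [h1, map_mul, map_mul, AlgEquiv.symm_apply_apply]
  have hTx : ∀ i y, d.x * T (i + 1) y = T i (d.x • y) * d.x := by
    intro i y
    simp only [T]
    rw [d.comm, ← mul_smul, ← pow_succ]
    congr 2
    set c := (d.σ ^ (i + 1)).symm (g' (d.x ^ (i + 1) • y)) with hc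
    have h0 : (d.σ ^ (i + 1)) c = g' (d.x ^ (i + 1) • y) := AlgEquiv.apply_symm_apply _ _
    have h1 : (d.σ ^ (i + 1)) c = (d.σ ^ i) (d.σ c) := by
      rw [pow_succ]
      rfl
    rw [← h0, h1, AlgEquiv.symm_apply_apply]
  obtain ⟨b, rfl⟩ : ∃ b, a = b + 1 := ⟨a - 1, by omega⟩
  let F₀ : Y → R := fun y => ∑ i ∈ Finset.range (b + 1), T i y * d.x ^ (b - i)
  have hF₀add : ∀ y y', F₀ (y + y') = F₀ y + F₀ y' := by
    intro y y'
    simp only [F₀]
    rw [← Finset.sum_add_distrib]
    refine Finset.sum_congr rfl fun i _ => ?_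
    rw [hTadd, add_mul]
  have hF₀x : ∀ y, F₀ (d.x • y) = d.x * F₀ y := by
    intro y
    simp only [F₀]
    rw [Finset.mul_sum, Finset.sum_range_succ, Finset.sum_range_succ']
    have h1 : T b (d.x • y) * d.x ^ (b - b) = 0 := by
      simp only [T]
      rw [← mul_smul, ← pow_succ, d.nil, zero_smul, hgz]
      simp
    have h2 : d.x * (T 0 y * d.x ^ (b - 0)) = 0 := by
      simp only [T]
      rw [← mul_assoc, d.comm, mul_assoc, ← pow_succ', Nat.sub_zero, d.nil, mul_zero]
    rw [h1, h2, add_zero, add_zero]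
    refine Finset.sum_congr rfl fun i hi => ?_
    have hi' := Finset.mem_range.mp hi
    rw [← mul_assoc, hTx, mul_assoc, ← pow_succ']
    congr 2
    omega
  have hF₀r : ∀ r : R, ∀ y, F₀ (r • y) = r * F₀ y := by
    intro r
    refine d.gen_induction (P := fun r => ∀ y, F₀ (r • y) = r * F₀ y) ?_ hF₀x ?_ ?_ r
    · intro s y
      simp only [F₀]
      rw [Finset.mul_sum]
      refine Finset.sum_congr rfl fun i _ => ?_
      rw [hTι, mul_assoc]
    · intro r r' h h' y
      rw [add_smul, hF₀add, h, h', add_mul]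
    · intro r r' h h' y
      rw [mul_smul, h, h', mul_assoc]
  let F : Y →ₗ[R] R :=
    { toFun := F₀
      map_add' := hF₀add
      map_smul' := hF₀r }
  refine ⟨ModuleCat.ofHom F, ?_⟩
  have hy : ∀ y : Y, d.topA (by omega) (F₀ y) = g' y := by
    intro y
    simp only [F₀]
    rw [map_sum, Finset.sum_eq_single 0]
    · simp only [T]
      rw [d.topA_mono (by omega) _ _ (by omega)]
      simp
      rfl
    · intro i hi hi0
      have hi' := Finset.mem_range.mp hi
      simp only [T]
      rw [d.topA_mono (by omega) _ _ (by omega), if_neg (by omega)]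
    · intro h
      exact absurd (Finset.mem_range.mpr (by omega)) h
  ext y
  exact hy y

end Top

section Free

/-- The left `S`-module `R` is free. -/
noncomputable def leftEquiv : (Fin a → S) ≃ₗ[S] res d.ιr (ModuleCat.of R R) where
  toFun := d.Φ
  map_add' := map_add d.Φ
  map_smul' := fun s c => by
    change d.Φ (s • c) = d.ι s * d.Φ c
    rw [Φ_apply, Φ_apply, Finset.mul_sum]
    refine Finset.sum_congr rfl fun j _ => ?_
    rw [Pi.smul_apply, smul_eq_mul, map_mul, mul_assoc]
  invFun := d.Φ.symm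
  left_inv := d.Φ.symm_apply_apply
  right_inv := d.Φ.apply_symm_apply

lemma res_proj : Module.Projective S (res d.ιr (ModuleCat.of R R)) :=
  Module.Projective.of_equiv d.leftEquiv

lemma res_fin : Module.Finite S (res d.ιr (ModuleCat.of R R)) :=
  Module.Finite.equiv d.leftEquiv

end Free

section Main

variable {M : Type u} [AddCommGroup M] [Module R M] [Module k M] [IsScalarTower k R M]
variable (ζ : ℕ → k)

/-- Vanishing of `Ext` into the restriction of a module with twists. -/
lemma ext_res_self (hζ : ∀ t, ζ t ≠ 0) (hP : PP ζ a = X ^ a - 1)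
    (htw : ∀ j < a, ∃ ψ : M ≃+ M, (∀ s m, ψ (d.ι s • m) = d.ι ((d.σ ^ j) s) • ψ m) ∧
      ∀ m, ψ (d.x • m) = (ζ j)⁻¹ • d.x • ψ m)
    (s : Syz R) (n : ℕ) (h : ∀ e : Ext (s.X 0) (ModuleCat.of R M) (n + 1), e = 0)
    (e : Ext (res d.ιr (s.X 0)) (res d.ιr (ModuleCat.of R M)) (n + 1)) : e = 0 :=
  ext_res d.ιr d.res_proj s n (ModuleCat.of R (Cind d.ιr M)) _ d.evC d.evC_universal
    (d.ext_cind ζ hζ hP htw (s.X 0) (n + 1) h) e

/-- Vanishing of `Ext` into `S`. -/
lemma ext_res_base (ha : 0 < a) (s : Syz R) (n : ℕ)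
    (h : ∀ e : Ext (s.X 0) (ModuleCat.of R R) (n + 1), e = 0)
    (e : Ext (res d.ιr (s.X 0)) (ModuleCat.of S S) (n + 1)) : e = 0 :=
  ext_res d.ιr d.res_proj s n (ModuleCat.of R R) _ (d.topC ha) (d.topC_universal ha) h e

end Main

end OreData

end Vale.Agent.Lib.P195.Ore
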