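import Vale.Agent.Lib.P195.Ore.Basic

/-!
The coinduced module `Hom_S(R, M)` of a module `M` over a truncated Ore extension `R` and its
filtration by twists of `M`, along the factorization of `X ^ a - 1` into linear factors.
-/

set_option linter.style.haveILetI false
set_option linter.unusedVariables false
set_option linter.unusedSectionVars false

open CategoryTheory Abelian Module Polynomial

namespace Vale.Agent.Lib.P195.Ore

universe u v

section Cind

variable {S R : Type u} [Ring S] [Ring R] (ι : S →+* R) (M : Type u) [AddCommGroup M] [Module R M]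

/-- `Hom_S(R, M)` as a group. -/
def cindSub : AddSubgroup (R →+ M) where
  carrier := {f | ∀ s r, f (ι s * r) = ι s • f r}
  add_mem' := fun {f g} hf hg s r => by simp [hf s r, hg s r]
  zero_mem' := fun s r => by simp
  neg_mem' := fun {f} hf s r => by simp [hf s r]

/-- The coinduced module. -/
abbrev Cind := ↥(cindSub ι M)

variable {ι M}

lemma Cind.map_ι_mul (f : Cind ι M) (s : S) (r : R) : f.1 (ι s * r) = ι s • f.1 r := f.2 s r

/-- The action on the coinduced module. -/
def Cind.act (r : R) (f : Cind ι M) : Cind ι M :=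
  ⟨f.1.comp (AddMonoidHom.mulRight r), fun s y => by
    change f.1 (ι s * y * r) = ι s • f.1 (y * r)
    rw [mul_assoc, f.2 s]⟩

instance : Module R (Cind ι M) where
  smul := Cind.act
  one_smul f := by
    apply Subtype.ext
    ext y
    change f.1 (y * 1) = f.1 y
    rw [mul_one]
  mul_smul r r' f := by
    apply Subtype.ext
    ext y
    change f.1 (y * (r * r')) = f.1 (y * r * r')
    rw [mul_assoc]
  smul_zero r := rfl
  smul_add r f g := rfl
  add_smul r r' f := by
    apply Subtype.ext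
    ext y
    change f.1 (y * (r + r')) = f.1 (y * r) + f.1 (y * r')
    rw [mul_add, map_add]
  zero_smul f := by
    apply Subtype.ext
    ext y
    change f.1 (y * 0) = 0
    rw [mul_zero, map_zero]

@[simp] lemma Cind.smul_apply (r : R) (f : Cind ι M) (y : R) : (r • f).1 y = f.1 (y * r) := rfl

@[simp] lemma Cind.add_apply (f g : Cind ι M) (y : R) : (f + g).1 y = f.1 y + g.1 y := rfl

@[simp] lemma Cind.zero_apply (y : R) : (0 : Cind ι M).1 y = 0 := rfl

end Cind

variable {k : Type v} {S R : Type u} [Field k] [Ring S] [Algebra k S] [Ring R] [Algebra k R]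
  {a : ℕ} (d : OreData k S R a)
variable {M : Type u} [AddCommGroup M] [Module R M] [Module k M] [IsScalarTower k R M]
variable (ζ : ℕ → k)

namespace OreData

/-- The underlying ring homomorphism of the inclusion. -/
abbrev ιr : S →+* R := d.ι.toRingHom

/-- The maps whose common kernels give the filtration. -/
noncomputable def nn : ℕ → Cind d.ιr M → M
  | 0, f => f.1 1
  | j + 1, f => d.x • nn j f - ζ j • nn j (d.x • f)

lemma nn_succ (j : ℕ) (f : Cind d.ιr M) :
    d.nn ζ (j + 1) f = d.x • d.nn ζ j f - ζ j • d.nn ζ j (d.x • f) := rfl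

lemma nn_add (j : ℕ) (f g : Cind d.ιr M) : d.nn ζ j (f + g) = d.nn ζ j f + d.nn ζ j g := by
  induction j generalizing f g with
  | zero => rfl
  | succ j ih =>
    rw [nn_succ, nn_succ, nn_succ, smul_add, ih, ih, smul_add, smul_add]
    abel

lemma nn_zero (j : ℕ) : d.nn ζ j (0 : Cind d.ιr M) = 0 := by
  have h := d.nn_add ζ j (0 : Cind d.ιr M) 0
  rw [add_zero] at h
  exact left_eq_add.mp h

lemma nn_ι (j : ℕ) (s : S) (f : Cind d.ιr M) :
    d.nn ζ j (d.ι s • f) = d.ι ((d.σ ^ j) s) • d.nn ζ j f := by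
  induction j generalizing s f with
  | zero =>
    change f.1 (1 * d.ιr s) = d.ι s • f.1 1
    rw [one_mul, show d.ιr s = d.ιr s * 1 by simp, f.2]
    rfl
  | succ j ih =>
    have h1 : d.x • (d.ι s • f) = d.ι (d.σ s) • (d.x • f) := by
      rw [← mul_smul, d.comm, mul_smul]
    have h2 : d.x • (d.ι ((d.σ ^ j) s) • d.nn ζ j f) =
        d.ι ((d.σ ^ (j + 1)) s) • (d.x • d.nn ζ j f) := by
      rw [← mul_smul, d.comm, mul_smul, pow_succ']
      rfl
    have h3 : (d.σ ^ j) (d.σ s) = (d.σ ^ (j + 1)) s := by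
      rw [pow_succ]
      rfl
    rw [nn_succ, nn_succ, ih, h1, ih, h2, h3, smul_sub, smul_comm (ζ j) (d.ι _)]

/-- The closed form of the maps `nn`. -/
noncomputable def EE (j : ℕ) (p : k[X]) (v : ℕ → M) : M :=
  ∑ i ∈ Finset.range (j + 1), p.coeff i • (d.x ^ i • v (j - i))

lemma EE_step (j : ℕ) (p : k[X]) (v : ℕ → M) (z : k) (hp : p.natDegree ≤ j) :
    d.EE (j + 1) ((X - C z) * p) v = d.x • d.EE j p v - z • d.EE j p (fun l => v (l + 1)) := by
  have hA : ∑ i ∈ Finset.range (j + 1 + 1), (X * p).coeff i • (d.x ^ i • v (j + 1 - i)) =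
      d.x • d.EE j p v := by
    rw [Finset.sum_range_succ']
    simp only [coeff_X_mul, coeff_X_mul_zero, zero_smul, add_zero]
    unfold EE
    rw [Finset.smul_sum]
    refine Finset.sum_congr rfl fun i _ => ?_
    rw [smul_comm d.x, smul_smul, pow_succ', Nat.add_sub_add_right]
  have hB : ∑ i ∈ Finset.range (j + 1 + 1), (C z * p).coeff i • (d.x ^ i • v (j + 1 - i)) =
      z • d.EE j p (fun l => v (l + 1)) := by
    rw [Finset.sum_range_succ]
    have h0 : p.coeff (j + 1) = 0 := coeff_eq_zero_of_natDegree_lt (by omega)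
    simp only [coeff_C_mul, h0, mul_zero, zero_smul, add_zero]
    unfold EE
    rw [Finset.smul_sum]
    refine Finset.sum_congr rfl fun i hi => ?_
    rw [mul_smul]
    have hi' : i ≤ j := by
      have := Finset.mem_range.mp hi
      omega
    have e : j + 1 - i = j - i + 1 := by omega
    rw [e]
  unfold EE at hA hB ⊢
  rw [sub_mul, ← hA, ← hB, ← Finset.sum_sub_distrib]
  refine Finset.sum_congr rfl fun i _ => ?_
  rw [coeff_sub, sub_smul]

/-- The factors of `X ^ a - 1`. -/
noncomputable def PP (j : ℕ) : k[X] := ∏ t ∈ Finset.range j, (X - C (ζ t))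

lemma PP_succ (j : ℕ) : PP ζ (j + 1) = (X - C (ζ j)) * PP ζ j := by
  unfold PP
  rw [Finset.prod_range_succ, mul_comm]

lemma PP_natDegree (j : ℕ) : (PP ζ j).natDegree ≤ j := by
  induction j with
  | zero => simp [PP]
  | succ j ih =>
    rw [PP_succ]
    refine natDegree_mul_le.trans ?_
    rw [natDegree_X_sub_C]
    omega

lemma PP_coeff_zero (hζ : ∀ t, ζ t ≠ 0) (j : ℕ) : (PP ζ j).coeff 0 ≠ 0 := by
  induction j with
  | zero => simp [PP]
  | succ j ih =>
    rw [PP_succ, mul_coeff_zero]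
    simp only [coeff_sub, coeff_X_zero, coeff_C_zero, zero_sub]
    exact mul_ne_zero (neg_ne_zero.mpr (hζ j)) ih

/-- The values of a map on the powers of `x`. -/
def vv (f : Cind d.ιr M) (l : ℕ) : M := f.1 (d.x ^ l)

lemma vv_x (f : Cind d.ιr M) (l : ℕ) : d.vv (d.x • f) l = d.vv f (l + 1) := by
  unfold vv
  rw [Cind.smul_apply, pow_succ]

lemma vv_eq_zero (f : Cind d.ιr M) (l : ℕ) (hl : a ≤ l) : d.vv f l = 0 := by
  unfold vv
  rw [d.pow_eq_zero l hl, map_zero]

lemma nn_closed (j : ℕ) (f : Cind d.ιr M) : d.nn ζ j f = d.EE j (PP ζ j) (d.vv f) := by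
  induction j generalizing f with
  | zero =>
    simp [nn, EE, PP, vv]
  | succ j ih =>
    rw [nn_succ, PP_succ, EE_step _ _ _ _ _ (PP_natDegree ζ j), ih, ih]
    congr 2
    congr 1
    funext l
    exact d.vv_x f l

lemma nn_top (hP : PP ζ a = X ^ a - 1) (f : Cind d.ιr M) : d.nn ζ a f = 0 := by
  rw [nn_closed, hP]
  refine Finset.sum_eq_zero fun i hi => ?_
  have hi' : i ≤ a := by
    have := Finset.mem_range.mp hi
    omega
  by_cases h1 : i = a
  · rw [h1, d.nil]
    simp
  · by_cases h0 : i = 0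
    · rw [h0, d.vv_eq_zero f (a - 0) (by omega)]
      simp
    · have : (X ^ a - 1 : k[X]).coeff i = 0 := by
        rw [coeff_sub, coeff_X_pow, coeff_one, if_neg h1, if_neg h0, sub_zero]
      rw [this, zero_smul]

lemma nn_ge (hP : PP ζ a = X ^ a - 1) (i : ℕ) (hi : a ≤ i) (f : Cind d.ιr M) :
    d.nn ζ i f = 0 := by
  induction i, hi using Nat.le_induction generalizing f with
  | base => exact d.nn_top ζ hP f
  | succ i hi ih =>
    rw [nn_succ, ih, ih]
    simp

lemma nn_tri (j : ℕ) (f : Cind d.ιr M) (h : ∀ l < j, d.vv f l = 0) :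
    d.nn ζ j f = (PP ζ j).coeff 0 • d.vv f j := by
  rw [nn_closed]
  unfold EE
  rw [Finset.sum_eq_single 0]
  · simp
  · intro i hi hi0
    have hi' : i ≤ j := by
      have := Finset.mem_range.mp hi
      omega
    rw [h (j - i) (by omega)]
    simp
  · simp

/-- The coinduced map with prescribed values. -/
noncomputable def ofSeq (w : Fin a → M) : Cind d.ιr M :=
  ⟨{ toFun := fun r => ∑ j, d.ι (d.coef r j) • w j
     map_zero' := by
      have : d.coef 0 = 0 := map_zero d.Φ.symm
      simp [this]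
     map_add' := fun r r' => by
      rw [d.coef_add]
      simp [add_smul, Finset.sum_add_distrib] },
    fun s r => by
      change ∑ j, d.ι (d.coef (d.ι s * r) j) • w j = d.ι s • ∑ j, d.ι (d.coef r j) • w j
      rw [Finset.smul_sum]
      refine Finset.sum_congr rfl fun j _ => ?_
      rw [d.coef_ι_mul, map_mul, mul_smul]⟩

lemma vv_ofSeq (w : Fin a → M) (l : Fin a) : d.vv (d.ofSeq w) l = w l := by
  classical
  change ∑ j, d.ι (d.coef (d.x ^ (l : ℕ)) j) • w j = w l
  rw [d.pow_coef, Finset.sum_eq_single l]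
  · simp
  · intro j _ hj
    simp [Pi.single_eq_of_ne hj]
  · simp

lemma eq_zero_of_vv (f : Cind d.ιr M) (h : ∀ l, d.vv f l = 0) : f = 0 := by
  apply Subtype.ext
  ext r
  rw [d.coef_spec r, map_sum]
  refine Finset.sum_eq_zero fun j _ => ?_
  have := f.2 (d.coef r j) (d.x ^ (j : ℕ))
  change f.1 (d.ι _ * _) = d.ι _ • f.1 _ at this
  rw [this]
  have h2 : f.1 (d.x ^ (j : ℕ)) = 0 := h j
  rw [h2, smul_zero]

lemma eq_zero_of_nn (hζ : ∀ t, ζ t ≠ 0) (f : Cind d.ιr M) (h : ∀ j, d.nn ζ j f = 0) : f = 0 := by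
  apply d.eq_zero_of_vv
  intro l
  induction l using Nat.strong_induction_on with
  | _ l ih =>
    have h1 := d.nn_tri ζ l f ih
    rw [h l] at h1
    exact (smul_eq_zero.mp h1.symm).resolve_left (PP_coeff_zero ζ hζ l)

/-- Arbitrary prescribed values for the maps `nn`. -/
lemma exists_nn (hζ : ∀ t, ζ t ≠ 0) (w : ℕ → M) (b : ℕ) (hb : b ≤ a) :
    ∃ f : Cind d.ιr M, ∀ l < b, d.nn ζ l f = w l := by
  classical
  induction b with
  | zero => exact ⟨0, fun l hl => absurd hl (by omega)⟩
  | succ b ih =>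
    obtain ⟨f, hf⟩ := ih (by omega)
    have hb' : b < a := by omega
    let c := (PP ζ b).coeff 0
    have hc : c ≠ 0 := PP_coeff_zero ζ hζ b
    let m : M := c⁻¹ • (w b - d.nn ζ b f)
    let g := d.ofSeq (Pi.single (⟨b, hb'⟩ : Fin a) m)
    have hgv : ∀ l, l ≠ b → d.vv g l = 0 := by
      intro l hl
      by_cases hla : l < a
      · have := d.vv_ofSeq (Pi.single (⟨b, hb'⟩ : Fin a) m) ⟨l, hla⟩
        simp only [] at this
        rw [this, Pi.single_eq_of_ne]
        intro h
        exact hl (congrArg Fin.val h)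
      · exact d.vv_eq_zero g l (by omega)
    have hgb : d.vv g b = m := by
      have := d.vv_ofSeq (Pi.single (⟨b, hb'⟩ : Fin a) m) ⟨b, hb'⟩
      simpa using this
    have hgl : ∀ l < b, d.nn ζ l g = 0 := by
      intro l hl
      rw [nn_closed]
      refine Finset.sum_eq_zero fun i hi => ?_
      rw [hgv (l - i) (by omega)]
      simp
    have hgbb : d.nn ζ b g = c • m := by
      rw [d.nn_tri ζ b g (fun l hl => hgv l (by omega)), hgb]
    refine ⟨f + g, fun l hl => ?_⟩
    rw [nn_add]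
    by_cases hlb : l < b
    · rw [hf l hlb, hgl l hlb, add_zero]
    · have : l = b := by omega
      subst this
      rw [hgbb, smul_smul, mul_inv_cancel₀ hc, one_smul]
      abel

/-- The filtration of the coinduced module. -/
def filt (hζ : ∀ t, ζ t ≠ 0) (j : ℕ) : Submodule R (Cind d.ιr M) where
  carrier := {f | ∀ i, j ≤ i → d.nn ζ i f = 0}
  add_mem' := fun {f g} hf hg i hi => by rw [nn_add, hf i hi, hg i hi, add_zero]
  zero_mem' := fun i hi => d.nn_zero ζ i
  smul_mem' := fun r f hf => by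
    refine d.gen_induction (P := fun r => ∀ f : Cind d.ιr M, (∀ i, j ≤ i → d.nn ζ i f = 0) →
      ∀ i, j ≤ i → d.nn ζ i (r • f) = 0) ?_ ?_ ?_ ?_ r f hf
    · intro s f hf i hi
      rw [nn_ι, hf i hi, smul_zero]
    · intro f hf i hi
      have h1 := d.nn_succ ζ i f
      rw [hf i hi, hf (i + 1) (by omega), smul_zero, zero_sub] at h1
      have h2 : ζ i • d.nn ζ i (d.x • f) = 0 := neg_eq_zero.mp h1.symm
      exact (smul_eq_zero.mp h2).resolve_left (hζ i)
    · intro r r' h h' f hf i hi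
      rw [add_smul, nn_add, h f hf i hi, h' f hf i hi, add_zero]
    · intro r r' h h' f hf i hi
      rw [mul_smul]
      exact h _ (h' f hf) i hi

lemma mem_filt (hζ : ∀ t, ζ t ≠ 0) (j : ℕ) (f : Cind d.ιr M) :
    f ∈ d.filt ζ hζ j ↔ ∀ i, j ≤ i → d.nn ζ i f = 0 := Iff.rfl

/-- The map from a step of the filtration to the module, given a twist. -/
noncomputable def nu (hζ : ∀ t, ζ t ≠ 0) (j : ℕ) (ψ : M ≃+ M)
    (hι : ∀ s m, ψ (d.ι s • m) = d.ι ((d.σ ^ j) s) • ψ m)
    (hx : ∀ m, ψ (d.x • m) = (ζ j)⁻¹ • d.x • ψ m) : d.filt (M := M) ζ hζ (j + 1) →ₗ[R] M where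
  toFun f := ψ.symm (d.nn ζ j f.1)
  map_add' f g := by
    change ψ.symm (d.nn ζ j (f.1 + g.1)) = _
    rw [nn_add, map_add]
  map_smul' r f := by
    have key : ∀ r : R, ∀ f : Cind d.ιr M, f ∈ d.filt ζ hζ (j + 1) →
        ψ.symm (d.nn ζ j (r • f)) = r • ψ.symm (d.nn ζ j f) := by
      intro r
      refine d.gen_induction (P := fun r => ∀ f : Cind d.ιr M, f ∈ d.filt ζ hζ (j + 1) →
        ψ.symm (d.nn ζ j (r • f)) = r • ψ.symm (d.nn ζ j f)) ?_ ?_ ?_ ?_ r
      · intro s f hf
        apply ψ.injective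
        rw [AddEquiv.apply_symm_apply, hι, AddEquiv.apply_symm_apply, nn_ι]
      · intro f hf
        apply ψ.injective
        rw [AddEquiv.apply_symm_apply, hx, AddEquiv.apply_symm_apply]
        have h1 := d.nn_succ ζ j f
        rw [hf (j + 1) le_rfl] at h1
        have h2 : ζ j • d.nn ζ j (d.x • f) = d.x • d.nn ζ j f := (sub_eq_zero.mp h1.symm).symm
        rw [← h2, smul_smul, inv_mul_cancel₀ (hζ j), one_smul]
      · intro r r' h h' f hf
        rw [add_smul, nn_add, map_add, h f hf, h' f hf, add_smul]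
      · intro r r' h h' f hf
        rw [mul_smul, h _ ((d.filt ζ hζ (j + 1)).smul_mem r' hf), h' f hf, mul_smul]
    exact key r f.1 f.2

lemma nu_apply (hζ : ∀ t, ζ t ≠ 0) (j : ℕ) (ψ : M ≃+ M)
    (hι : ∀ s m, ψ (d.ι s • m) = d.ι ((d.σ ^ j) s) • ψ m)
    (hx : ∀ m, ψ (d.x • m) = (ζ j)⁻¹ • d.x • ψ m) (f : d.filt (M := M) ζ hζ (j + 1)) :
    d.nu ζ hζ j ψ hι hx f = ψ.symm (d.nn ζ j f.1) := rfl

lemma nu_surjective (hζ : ∀ t, ζ t ≠ 0) (hP : PP ζ a = X ^ a - 1) (j : ℕ) (hj : j < a) (ψ : M ≃+ M)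
    (hι : ∀ s m, ψ (d.ι s • m) = d.ι ((d.σ ^ j) s) • ψ m)
    (hx : ∀ m, ψ (d.x • m) = (ζ j)⁻¹ • d.x • ψ m) :
    Function.Surjective (d.nu ζ hζ j ψ hι hx) := by
  classical
  intro m
  obtain ⟨f, hf⟩ := d.exists_nn ζ hζ (Function.update (fun _ => 0) j (ψ m)) a le_rfl
  refine ⟨⟨f, fun i hi => ?_⟩, ?_⟩
  · by_cases hia : i < a
    · rw [hf i hia, Function.update_of_ne (by omega)]
    · exact d.nn_ge ζ hP i (by omega) f
  · rw [nu_apply]
    change ψ.symm (d.nn ζ j f) = m
    rw [hf j hj, Function.update_self, AddEquiv.symm_apply_apply]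

lemma nu_exact (hζ : ∀ t, ζ t ≠ 0) (j : ℕ) (ψ : M ≃+ M)
    (hι : ∀ s m, ψ (d.ι s • m) = d.ι ((d.σ ^ j) s) • ψ m)
    (hx : ∀ m, ψ (d.x • m) = (ζ j)⁻¹ • d.x • ψ m) (f : d.filt (M := M) ζ hζ (j + 1)) :
    d.nu ζ hζ j ψ hι hx f = 0 ↔ f.1 ∈ d.filt ζ hζ j := by
  rw [nu_apply]
  constructor
  · intro h i hi
    rcases Nat.eq_or_lt_of_le hi with rfl | hlt
    · have h2 := congrArg ψ h
      rw [AddEquiv.apply_symm_apply, map_zero] at h2
      exact h2
    · exact f.2 i hlt
  · intro h
    rw [h j le_rfl, map_zero]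

end OreData

/-- The roots of a monic polynomial over an algebraically closed field. -/
lemma exists_roots [IsAlgClosed k] (n : ℕ) (p : k[X]) (hp : p.Monic) (hn : p.natDegree = n) :
    ∃ z : ℕ → k, ∏ t ∈ Finset.range n, (X - C (z t)) = p := by
  induction n generalizing p with
  | zero =>
    refine ⟨fun _ => 0, ?_⟩
    simp only [Finset.range_zero, Finset.prod_empty]
    exact (hp.natDegree_eq_zero.mp hn).symm
  | succ n ih =>
    have hdeg : p.degree ≠ 0 := by
      intro h
      rw [degree_eq_natDegree hp.ne_zero, hn] at h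
      norm_cast at h
    obtain ⟨z, hz⟩ := IsAlgClosed.exists_root p hdeg
    have hq : (X - C z) * (p /ₘ (X - C z)) = p := mul_divByMonic_eq_iff_isRoot.mpr hz
    have hqm : (p /ₘ (X - C z)).Monic := by
      have hne : p /ₘ (X - C z) ≠ 0 := by
        intro h
        rw [h, mul_zero] at hq
        exact hp.ne_zero hq.symm
      exact (monic_X_sub_C z).of_mul_monic_left (by rw [hq]; exact hp)
    have hqd : (p /ₘ (X - C z)).natDegree = n := by
      rw [natDegree_divByMonic _ (monic_X_sub_C z), natDegree_X_sub_C, hn]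
      omega
    obtain ⟨w, hw⟩ := ih _ hqm hqd
    refine ⟨fun t => if t = n then z else w t, ?_⟩
    rw [Finset.prod_range_succ]
    simp only [if_true]
    have : ∏ t ∈ Finset.range n, (X - C (if t = n then z else w t)) =
        ∏ t ∈ Finset.range n, (X - C (w t)) := by
      refine Finset.prod_congr rfl fun t ht => ?_
      rw [if_neg (Finset.mem_range.mp ht).ne]
    rw [this, hw, mul_comm, hq]

/-- The factorization of `X ^ a - 1` with nonzero roots. -/
lemma exists_zeta [IsAlgClosed k] (ha : 0 < a) :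
    ∃ z : ℕ → k, (∀ t, z t ≠ 0) ∧ OreData.PP z a = X ^ a - 1 := by
  have hm : (X ^ a - 1 : k[X]).Monic := monic_X_pow_sub_C 1 ha.ne'
  have hd : (X ^ a - 1 : k[X]).natDegree = a := natDegree_X_pow_sub_C (r := (1 : k))
  obtain ⟨z, hz⟩ := exists_roots a _ hm hd
  have hroot : ∀ t < a, z t ≠ 0 := by
    intro t ht h0
    have h1 : (X ^ a - 1 : k[X]).eval (z t) = 0 := by
      rw [← hz, eval_prod]
      exact Finset.prod_eq_zero (Finset.mem_range.mpr ht) (by simp)
    rw [h0] at h1
    simp [ha.ne'] at h1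
  refine ⟨fun t => if t < a then z t else 1, ?_, ?_⟩
  · intro t
    by_cases h : t < a
    · simp [h, hroot t h]
    · simp [h]
  · unfold OreData.PP
    rw [← hz]
    refine Finset.prod_congr rfl fun t ht => ?_
    have := Finset.mem_range.mp ht
    simp [this]

end Vale.Agent.Lib.P195.Ore
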