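import Vale.Agent.Lib.P195.Ore.Coind
import Vale.Agent.Lib.P195.RigidCert

/-!
A module with vanishing first self-extension is isomorphic to its twists along polynomial curves of
algebra endomorphisms, by the polynomial certificate at both ends of the curve.
-/

set_option linter.style.haveILetI false
set_option linter.unusedVariables false
set_option linter.unusedSectionVars false

open CategoryTheory Abelian Module

namespace Vale.Agent.Lib.P195.Ore

open Vale.Agent.Lib.P176 Vale.Agent.Lib.P195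

universe u v

section Twist

variable {k : Type v} {R : Type u} [Field k] [Ring R] [Algebra k R]

/-- The module `M` with the action twisted by an algebra endomorphism. -/
def Tw (τ : R →ₐ[k] R) (M : Type u) : Type u := M

variable (τ : R →ₐ[k] R) (M : Type u) [AddCommGroup M] [Module R M] [Module k M]
  [IsScalarTower k R M]

instance : AddCommGroup (Tw τ M) := inferInstanceAs (AddCommGroup M)

noncomputable instance : Module R (Tw τ M) := Module.compHom M τ.toRingHom

noncomputable instance : Module k (Tw τ M) := inferInstanceAs (Module k M)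

instance : IsScalarTower k R (Tw τ M) where
  smul_assoc c r m := by
    change τ (c • r) • (show M from m) = c • (τ r • (show M from m))
    rw [map_smul, smul_assoc]

lemma Tw.smul_def (r : R) (m : Tw τ M) : r • m = (τ r • (show M from m) : M) := rfl

variable {τ M}

/-- The basis of a twist. -/
def bTw {D : ℕ} (τ : R →ₐ[k] R) (bM : Basis (Fin D) k M) : Basis (Fin D) k (Tw τ M) := bM

variable {ι : Type*} [Fintype ι] [DecidableEq ι] (e : Basis ι k R) {D : ℕ}

lemma pt_tw (bM : Basis (Fin D) k M) (q : ι × Fin D × Fin D) :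
    pt e (bTw τ bM) q = ∑ i, e.repr (τ (e q.1)) i * pt e bM (i, q.2.1, q.2.2) := by
  obtain ⟨j, l, l'⟩ := q
  change bM.repr (τ (e j) • bM l') l = _
  conv_lhs => rw [← e.sum_repr (τ (e j))]
  rw [Finset.sum_smul, map_sum, Finsupp.finsetSum_apply]
  refine Finset.sum_congr rfl fun i _ => ?_
  rw [smul_assoc, map_smul, Finsupp.smul_apply, smul_eq_mul]
  rfl

lemma eval_aeval_pt {σ : Type*} (Pt : σ → Polynomial k) (c : k) (g : MvPolynomial σ k) :
    (MvPolynomial.aeval Pt g).eval c = MvPolynomial.eval (fun q => (Pt q).eval c) g := by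
  induction g using MvPolynomial.induction_on with
  | C a => simp
  | add p q hp hq => simp [map_add, Polynomial.eval_add, hp, hq]
  | mul_X p i hp => simp [map_mul, Polynomial.eval_mul, hp]

end Twist

section Curve

variable {k : Type v} {R : Type u} [Field k] [Ring R] [Algebra k R] [Module.Finite k R]

/-- The certificate at a module with a presentation having the extension property. -/
lemma cert_of_presentation {M : Type u} [AddCommGroup M] [Module R M] [Module k M]
    [IsScalarTower k R M] [Module.Finite k M] {ι : Type*} [Fintype ι] [DecidableEq ι]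
    (e : Basis ι k R) {D : ℕ} (bM : Basis (Fin D) k M) {t : ℕ} (p : (Fin t → R) →ₗ[R] M)
    (hp : Function.Surjective p)
    (hrig : ∀ f : LinearMap.ker p →ₗ[R] M, ∃ g : (Fin t → R) →ₗ[R] M,
      g ∘ₗ (LinearMap.ker p).subtype = f) :
    ∃ g : MvPolynomial (ι × Fin D × Fin D) k, MvPolynomial.eval (pt e bM) g ≠ 0 ∧
      ∀ (Z : Type u) [AddCommGroup Z] [Module R Z] [Module k Z] [IsScalarTower k R Z]
        (bZ : Basis (Fin D) k Z), MvPolynomial.eval (pt e bZ) g ≠ 0 → Nonempty (M ≃ₗ[R] Z) := by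
  haveI : Module.Finite k (LinearMap.ker p) := Module.Finite.of_injective
    ((LinearMap.ker p).subtype.restrictScalars k) (Submodule.injective_subtype _)
  exact rigid_cert.{u} e bM (Module.finBasis k (LinearMap.ker p))
    (LinearMap.ker p).subtype p hp (LinearMap.exact_subtype_ker_map p) hrig

/-- The presentation of a twist by an automorphism. -/
lemma twist_presentation {M : Type u} [AddCommGroup M] [Module R M] [Module k M]
    [IsScalarTower k R M] (T : R ≃ₐ[k] R) {t : ℕ} (p : (Fin t → R) →ₗ[R] M)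
    (hp : Function.Surjective p)
    (hrig : ∀ f : LinearMap.ker p →ₗ[R] M, ∃ g : (Fin t → R) →ₗ[R] M,
      g ∘ₗ (LinearMap.ker p).subtype = f) :
    ∃ p₂ : (Fin t → R) →ₗ[R] Tw T.toAlgHom M, Function.Surjective p₂ ∧
      ∀ f : LinearMap.ker p₂ →ₗ[R] Tw T.toAlgHom M, ∃ g : (Fin t → R) →ₗ[R] Tw T.toAlgHom M,
        g ∘ₗ (LinearMap.ker p₂).subtype = f := by
  let p₂ : (Fin t → R) →ₗ[R] Tw T.toAlgHom M :=
    { toFun := fun v => p (fun i => T (v i))
      map_add' := fun v w => by
        change p (fun i => T (v i + w i)) = p (_) + p (_)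
        rw [← map_add]
        congr 1
        funext i
        simp
      map_smul' := fun r v => by
        change p (fun i => T (r * v i)) = T r • p (_)
        rw [← map_smul]
        congr 1
        funext i
        simp }
  refine ⟨p₂, ?_, ?_⟩
  · intro m
    obtain ⟨v, hv⟩ := hp (show M from m)
    refine ⟨fun i => T.symm (v i), ?_⟩
    change p (fun i => T (T.symm (v i))) = m
    simp only [AlgEquiv.apply_symm_apply]
    exact hv
  · intro f₂
    have hmem : ∀ w : LinearMap.ker p, (fun i => T.symm (w.1 i)) ∈ LinearMap.ker p₂ := by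
      intro w
      change p (fun i => T (T.symm (w.1 i))) = 0
      simp only [AlgEquiv.apply_symm_apply]
      exact w.2
    let f : LinearMap.ker p →ₗ[R] M :=
      { toFun := fun w => f₂ ⟨_, hmem w⟩
        map_add' := fun w w' => by
          have : (⟨_, hmem (w + w')⟩ : LinearMap.ker p₂) = ⟨_, hmem w⟩ + ⟨_, hmem w'⟩ := by
            apply Subtype.ext
            funext i
            simp
          rw [this, map_add]
          rfl
        map_smul' := fun r w => by
          have : (⟨_, hmem (r • w)⟩ : LinearMap.ker p₂) = T.symm r • ⟨_, hmem w⟩ := by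
            apply Subtype.ext
            funext i
            simp
          rw [this, map_smul]
          change T (T.symm r) • (_ : M) = r • _
          rw [AlgEquiv.apply_symm_apply] }
    obtain ⟨g, hg⟩ := hrig f
    refine ⟨{ toFun := fun v => g (fun i => T (v i))
              map_add' := fun v w => by
                change g (fun i => T (v i + w i)) = g (_) + g (_)
                rw [← map_add]
                congr 1
                funext i
                simp
              map_smul' := fun r v => by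
                change g (fun i => T (r * v i)) = T r • g (_)
                rw [← map_smul]
                congr 1
                funext i
                simp }, ?_⟩
    ext1 w
    have hw : (fun i => T (w.1 i)) ∈ LinearMap.ker p := w.2
    have h1 := LinearMap.congr_fun hg ⟨_, hw⟩
    change g (fun i => T (w.1 i)) = f₂ w
    refine h1.trans ?_
    change f₂ ⟨_, hmem ⟨_, hw⟩⟩ = f₂ w
    congr 1
    apply Subtype.ext
    funext i
    simp

/-- A module with vanishing first self-extension is isomorphic to its twists along a polynomial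
curve of algebra endomorphisms through the identity and an automorphism. -/
theorem twist_of_curve [Infinite k] (τ : k → (R →ₐ[k] R))
    (hτ : ∀ (r : R) (φ : Module.Dual k R), ∃ p : Polynomial k, ∀ c, φ (τ c r) = p.eval c)
    (c₁ c₂ : k) (h₁ : τ c₁ = AlgHom.id k R) (T : R ≃ₐ[k] R) (h₂ : τ c₂ = T.toAlgHom)
    (M : Type u) [AddCommGroup M] [Module R M] [Module k M] [IsScalarTower k R M]
    [Module.Finite R M] (hM : ∀ e : Ext (ModuleCat.of R M) (ModuleCat.of R M) 1, e = 0) :
    ∃ ψ : M ≃+ M, ∀ r m, ψ (r • m) = τ c₂ r • ψ m := by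
  classical
  haveI : Module.Finite k M := Module.Finite.trans R M
  let e := Module.finBasis k R
  let bM := Module.finBasis k M
  obtain ⟨t, p, hp⟩ := Module.Finite.exists_fin' R M
  have hsh : (LinearMap.shortComplexKer p).ShortExact := LinearMap.shortExact_shortComplexKer hp
  have hrig : ∀ f : LinearMap.ker p →ₗ[R] M, ∃ g : (Fin t → R) →ₗ[R] M,
      g ∘ₗ (LinearMap.ker p).subtype = f := by
    intro f
    obtain ⟨g, hg⟩ := extend_of_ext_vanish hsh (ModuleCat.of R M) hM (ModuleCat.ofHom f)
    refine ⟨g.hom, ?_⟩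
    have := congr_arg ModuleCat.Hom.hom hg
    simpa using this
  obtain ⟨g₁, hg₁, hg₁'⟩ := cert_of_presentation e bM p hp hrig
  obtain ⟨p₂, hp₂, hrig₂⟩ := twist_presentation T p hp hrig
  haveI : Module.Finite k (Tw T.toAlgHom M) := inferInstanceAs (Module.Finite k M)
  obtain ⟨g₂, hg₂, hg₂'⟩ := cert_of_presentation e (bTw T.toAlgHom bM) p₂ hp₂ hrig₂
  -- the polynomial point
  have hA : ∀ j i, ∃ A : Polynomial k, ∀ c, e.repr (τ c (e j)) i = A.eval c :=
    fun j i => hτ (e j) (e.coord i)
  choose A hA using hA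
  let Pt : (Fin (Module.finrank k R) × Fin (Module.finrank k M) × Fin (Module.finrank k M)) →
      Polynomial k := fun q => ∑ i, A q.1 i * Polynomial.C (pt e bM (i, q.2.1, q.2.2))
  have hPt : ∀ c q, (Pt q).eval c = pt e (bTw (τ c) bM) q := by
    intro c q
    rw [pt_tw]
    simp only [Pt, Polynomial.eval_finsetSum, Polynomial.eval_mul, Polynomial.eval_C, hA]
  let H₁ : Polynomial k := MvPolynomial.aeval Pt g₁
  let H₂ : Polynomial k := MvPolynomial.aeval Pt g₂
  have hH : ∀ (g : MvPolynomial _ k) c, (MvPolynomial.aeval Pt g).eval c =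
      MvPolynomial.eval (pt e (bTw (τ c) bM)) g := by
    intro g c
    rw [eval_aeval_pt]
    congr 2
    funext q
    exact hPt c q
  have hH₁ : H₁.eval c₁ ≠ 0 := by
    rw [hH, h₁]
    exact hg₁
  have hH₂ : H₂.eval c₂ ≠ 0 := by
    rw [hH, h₂]
    exact hg₂
  have hne₁ : H₁ ≠ 0 := fun h => hH₁ (by rw [h]; simp)
  have hne₂ : H₂ ≠ 0 := fun h => hH₂ (by rw [h]; simp)
  obtain ⟨c, hc⟩ : ∃ c, (H₁ * H₂).eval c ≠ 0 := by
    by_contra hcon
    push Not at hcon
    exact mul_ne_zero hne₁ hne₂ (Polynomial.funext (by simpa using hcon))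
  rw [Polynomial.eval_mul] at hc
  have hc₁ : H₁.eval c ≠ 0 := left_ne_zero_of_mul hc
  have hc₂ : H₂.eval c ≠ 0 := right_ne_zero_of_mul hc
  rw [hH] at hc₁ hc₂
  obtain ⟨φ₁⟩ := hg₁' (Tw (τ c) M) (bTw (τ c) bM) hc₁
  obtain ⟨φ₂⟩ := hg₂' (Tw (τ c) M) (bTw (τ c) bM) hc₂
  let φ : M ≃ₗ[R] Tw T.toAlgHom M := φ₁.trans φ₂.symm
  refine ⟨(show M ≃+ M from φ.toAddEquiv), fun r m => ?_⟩
  rw [h₂]
  exact φ.map_smul r m

end Curve

section Ore

variable {k : Type v} {S R : Type u} [Field k] [Ring S] [Algebra k S] [Ring R] [Algebra k R]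
  {a : ℕ} (d : OreData k S R a)

lemma polyCurve_pow [Module.Finite k S] (T : k → (S →ₐ[k] S))
    (hT : ∀ s, PolyCurve (fun c => T c s)) (j : ℕ) (s : S) :
    PolyCurve (fun c => ((T c) ^ j) s) := by
  classical
  let e := Module.finBasis k S
  induction j generalizing s with
  | zero =>
    intro φ
    exact ⟨Polynomial.C (φ s), fun c => by simp⟩
  | succ j ih =>
    intro φ
    have h1 : ∀ c, φ (((T c) ^ (j + 1)) s) =
        ∑ i, e.repr (T c s) i * φ (((T c) ^ j) (e i)) := by
      intro c
      have h2 : ((T c) ^ (j + 1)) s = ((T c) ^ j) (T c s) := by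
        rw [pow_succ]
        rfl
      rw [h2]
      conv_lhs => rw [← e.sum_repr (T c s)]
      rw [map_sum, map_sum]
      refine Finset.sum_congr rfl fun i _ => ?_
      rw [map_smul, map_smul, smul_eq_mul]
    choose A hA using fun i => hT s (e.coord i)
    choose B hB using fun i => ih (e i) φ
    refine ⟨∑ i, A i * B i, fun c => ?_⟩
    rw [h1, Polynomial.eval_finsetSum]
    refine Finset.sum_congr rfl fun i _ => ?_
    rw [Polynomial.eval_mul, ← hA, ← hB]
    rfl

namespace OreData

lemma pow_comm_hom (T : S →ₐ[k] S) (hT : ∀ s, T (d.σ s) = d.σ (T s)) (j : ℕ) (s : S) :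
    (T ^ j) (d.σ s) = d.σ ((T ^ j) s) := by
  induction j generalizing s with
  | zero => simp
  | succ j ih =>
    rw [pow_succ]
    change (T ^ j) (T (d.σ s)) = d.σ ((T ^ j) (T s))
    rw [hT, ih]

lemma extAlg_eq_self (ha : 0 < a) (T : S →ₐ[k] S) (hT : ∀ s, T (d.σ s) = d.σ (T s))
    (h1 : ∀ s, T s = s) (r : R) : d.extAlg ha T hT 1 r = r := by
  rw [extAlg_apply]
  conv_rhs => rw [d.coef_spec r]
  refine Finset.sum_congr rfl fun j _ => ?_
  rw [h1]
  simp

lemma extAlg_comp (ha : 0 < a) (T T' : S →ₐ[k] S) (hT : ∀ s, T (d.σ s) = d.σ (T s))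
    (hT' : ∀ s, T' (d.σ s) = d.σ (T' s)) (u u' : k) (h : ∀ s, T (T' s) = s) (hu : u * u' = 1)
    (r : R) : d.extAlg ha T hT u (d.extAlg ha T' hT' u' r) = r := by
  rw [d.extAlg_apply ha T' hT' u' r, map_sum]
  conv_rhs => rw [d.coef_spec r]
  refine Finset.sum_congr rfl fun j _ => ?_
  rw [map_smul, extAlg_mono, h, smul_smul, ← mul_pow, mul_comm u' u, hu, one_pow, one_smul]

/-- The twisting automorphism of `R`. -/
noncomputable def extEquiv (ha : 0 < a) (T : S ≃ₐ[k] S) (hT : ∀ s, T (d.σ s) = d.σ (T s)) (u : k)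
    (hu : u ≠ 0) : R ≃ₐ[k] R :=
  have hT' : ∀ s, T.symm (d.σ s) = d.σ (T.symm s) := fun s => by
    apply T.injective
    rw [T.apply_symm_apply, hT, T.apply_symm_apply]
  AlgEquiv.ofAlgHom (d.extAlg ha T.toAlgHom hT u) (d.extAlg ha T.symm.toAlgHom hT' u⁻¹)
    (AlgHom.ext fun r => d.extAlg_comp ha T.toAlgHom T.symm.toAlgHom hT hT' u u⁻¹
      (fun s => T.apply_symm_apply s) (mul_inv_cancel₀ hu) r)
    (AlgHom.ext fun r => d.extAlg_comp ha T.symm.toAlgHom T.toAlgHom hT' hT u⁻¹ u
      (fun s => T.symm_apply_apply s) (inv_mul_cancel₀ hu) r)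

lemma pow_id (T : S →ₐ[k] S) (h : ∀ s, T s = s) (j : ℕ) (s : S) : (T ^ j) s = s := by
  induction j generalizing s with
  | zero => simp
  | succ j ih =>
    rw [pow_succ]
    change (T ^ j) (T s) = s
    rw [h, ih]

lemma pow_σ (T : S →ₐ[k] S) (h : ∀ s, T s = d.σ s) (j : ℕ) (s : S) :
    (T ^ j) s = (d.σ ^ j) s := by
  induction j generalizing s with
  | zero => simp
  | succ j ih =>
    rw [pow_succ, pow_succ]
    change (T ^ j) (T s) = (d.σ ^ j) (d.σ s)
    rw [h, ih]

/-- The twists of a module with vanishing first self-extension. -/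
theorem exists_twist [Infinite k] [Module.Finite k S] (ha : 0 < a) (T : k → (S →ₐ[k] S))
    (hT : ∀ s, PolyCurve (fun c => T c s)) (hT0 : ∀ s, T 0 s = s) (hT1 : ∀ s, T 1 s = d.σ s)
    (hTσ : ∀ c s, T c (d.σ s) = d.σ (T c s))
    (M : Type u) [AddCommGroup M] [Module R M] [Module k M] [IsScalarTower k R M]
    [Module.Finite R M] (hM : ∀ e : Ext (ModuleCat.of R M) (ModuleCat.of R M) 1, e = 0)
    (j : ℕ) (z : k) (hz : z ≠ 0) :
    ∃ ψ : M ≃+ M, (∀ s m, ψ (d.ι s • m) = d.ι ((d.σ ^ j) s) • ψ m) ∧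
      ∀ m, ψ (d.x • m) = z • d.x • ψ m := by
  haveI : Module.Finite k R := Module.Finite.equiv d.Φ
  let τ : k → (R →ₐ[k] R) := fun c =>
    d.extAlg ha ((T c) ^ j) (d.pow_comm_hom (T c) (hTσ c) j) (1 + c * (z - 1))
  have hσj : ∀ s, (d.σ ^ j) (d.σ s) = d.σ ((d.σ ^ j) s) := by
    intro s
    rw [← AlgEquiv.mul_apply, ← AlgEquiv.mul_apply, ← pow_succ, ← pow_succ']
  have hτ : ∀ (r : R) (φ : Module.Dual k R), ∃ p : Polynomial k, ∀ c, φ (τ c r) = p.eval c := by
    intro r φ
    let φl : Fin a → Module.Dual k S := fun l =>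
      φ ∘ₗ (LinearMap.mulRight k (d.x ^ (l : ℕ))) ∘ₗ d.ι.toLinearMap
    choose A hA using fun l => polyCurve_pow T hT j (d.coef r l) (φl l)
    refine ⟨∑ l : Fin a, (1 + Polynomial.X * Polynomial.C (z - 1)) ^ (l : ℕ) * A l, fun c => ?_⟩
    have h1 : τ c r = _ := d.extAlg_apply ha _ _ _ r
    rw [h1, map_sum, Polynomial.eval_finsetSum]
    refine Finset.sum_congr rfl fun l _ => ?_
    rw [map_smul, Polynomial.eval_mul, Polynomial.eval_pow, ← hA, smul_eq_mul]
    simp [φl]
  have hτ0 : τ 0 = AlgHom.id k R := by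
    apply AlgHom.ext
    intro r
    simp only [τ]
    have h1 : 1 + (0 : k) * (z - 1) = 1 := by simp
    rw [h1]
    exact d.extAlg_eq_self ha _ _ (pow_id (T 0) hT0 j) r
  have hu1 : 1 + (1 : k) * (z - 1) = z := by ring
  let TR : R ≃ₐ[k] R := d.extEquiv ha (d.σ ^ j) hσj z hz
  have hτ1 : τ 1 = TR.toAlgHom := by
    apply AlgHom.ext
    intro r
    simp only [τ]
    rw [hu1, d.extAlg_apply]
    change _ = ∑ l : Fin a, z ^ (l : ℕ) • (d.ι ((d.σ ^ j) (d.coef r l)) * d.x ^ (l : ℕ))
    refine Finset.sum_congr rfl fun l _ => ?_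
    rw [d.pow_σ (T 1) hT1 j]
  obtain ⟨ψ, hψ⟩ := twist_of_curve τ hτ 0 1 hτ0 TR hτ1 M hM
  refine ⟨ψ, fun s m => ?_, fun m => ?_⟩
  · rw [hψ]
    simp only [τ]
    rw [d.extAlg_ι, d.pow_σ (T 1) hT1 j]
  · rw [hψ]
    simp only [τ]
    rw [d.extAlg_x, hu1, smul_assoc]

end OreData

end Ore

end Vale.Agent.Lib.P195.Ore
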