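import Vale.Agent.Lib.P195.Ore.Betti
import Vale.Agent.Lib.P195.Ore.Twist

/-!
Stability of the Auslander-Reiten property under truncated Ore extensions.
-/

set_option linter.style.haveILetI false
set_option linter.unusedVariables false
set_option linter.unusedSectionVars false

open CategoryTheory Abelian Module

namespace Vale.Agent.Lib.P195.Ore

open Vale.Agent.Lib.P176 Vale.Agent.Lib.P195

universe u v

lemma length_le_finrank {k : Type v} {R : Type u} [Field k] [Ring R] [Algebra k R]
    (N : Type u) [AddCommGroup N] [Module R N] [Module k N] [IsScalarTower k R N]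
    [Module.Finite k N] : Module.length R N ≤ finrank k N := by
  have h := Submodule.length_le_length_restrictScalars k (⊤ : Submodule R N)
  rw [Module.length_top, Submodule.restrictScalars_top, Module.length_top,
    Module.length_eq_finrank] at h
  exact h

variable {k : Type v} {S R : Type u} [Field k] [Ring S] [Algebra k S] [Ring R] [Algebra k R]
  {a : ℕ} (d : OreData k S R a)

namespace OreData

/-- The main theorem: the property `ARm` passes from `S` to `S[x; σ] / (x ^ a)`. -/
theorem ore_stable [IsAlgClosed k] [Module.Finite k S] (ha : 0 < a) (T : k → (S →ₐ[k] S))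
    (hT : ∀ s, PolyCurve (fun c => T c s)) (hT0 : ∀ s, T 0 s = s) (hT1 : ∀ s, T 1 s = d.σ s)
    (hTσ : ∀ c s, T c (d.σ s) = d.σ (T c s)) (m : ℕ) (hS : ARm S m) : ARm R m := by
  intro M hM h₂ h₁ hm
  haveI : Module.Finite k R := Module.Finite.equiv d.Φ
  haveI : IsArtinianRing R := IsArtinianRing.of_finite k R
  obtain ⟨s, rfl⟩ := exists_syz M
  letI iX : ∀ i, Module k (s.X i) := fun i => modS k R (s.X i)
  haveI tX : ∀ i, IsScalarTower k R (s.X i) := fun i => towerS k R (s.X i)
  letI iP : ∀ i, Module k (s.P i) := fun i => modS k R (s.P i)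
  haveI tP : ∀ i, IsScalarTower k R (s.P i) := fun i => towerS k R (s.P i)
  haveI fX : ∀ i, Module.Finite k (s.X i) := fun i => Module.Finite.trans R (s.X i)
  haveI fP : ∀ i, Module.Finite k (s.P i) := fun i => Module.Finite.trans R (s.P i)
  obtain ⟨ζ, hζ, hP⟩ := exists_zeta (k := k) ha
  have htw : ∀ j < a, ∃ ψ : s.X 0 ≃+ s.X 0,
      (∀ t m, ψ (d.ι t • m) = d.ι ((d.σ ^ j) t) • ψ m) ∧
        ∀ m, ψ (d.x • m) = (ζ j)⁻¹ • d.x • ψ m :=
    fun j _ => d.exists_twist ha T hT hT0 hT1 hTσ (s.X 0) h₁ j (ζ j)⁻¹ (inv_ne_zero (hζ j))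
  have hres₂ : ∀ i : ℕ, 1 ≤ i → ∀ e : Ext (res d.ιr (s.X 0)) (ModuleCat.of S S) i, e = 0 := by
    intro i hi e
    obtain ⟨n, rfl⟩ : ∃ n, i = n + 1 := ⟨i - 1, by omega⟩
    exact d.ext_res_base ha s n (h₂ _ hi) e
  have hres₁ : ∀ e : Ext (res d.ιr (s.X 0)) (res d.ιr (s.X 0)) 1, e = 0 :=
    fun e => d.ext_res_self (M := s.X 0) ζ hζ hP htw s 0 h₁ e
  have hresm : ∀ i : ℕ, m < i → ∀ e : Ext (res d.ιr (s.X 0)) (res d.ιr (s.X 0)) i, e = 0 := by
    intro i hi e
    obtain ⟨n, rfl⟩ : ∃ n, i = n + 1 := ⟨i - 1, by omega⟩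
    exact d.ext_res_self (M := s.X 0) ζ hζ hP htw s n (hm _ hi) e
  have hpr : Module.Projective S (res d.ιr (s.X 0)) :=
    hS (res d.ιr (s.X 0)) (res_finite d.ιr d.res_fin (s.X 0)) hres₂ hres₁ hresm
  -- all syzygies are projective over `S`
  let r := resPRes d.ιr d.res_proj s
  have hpall : ∀ i, Module.Projective S (res d.ιr (s.X i)) := by
    intro c
    haveI hpr' : Module.Projective S (r.X 0) := hpr
    haveI : Projective (r.X 0) := ModuleCat.projective_of_categoryTheory_projective (r.X 0)
    have hr0 : HasProjectiveDimensionLT (r.X 0) 1 := inferInstance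
    have hr3 : HasProjectiveDimensionLT (r.X 0) (c + 1) :=
      hasProjectiveDimensionLT_of_ge _ 1 _ (by omega)
    have hr4 := r.lt_down c 0 hr3
    have e : 0 + c = c := by omega
    rw [e] at hr4
    haveI : Projective (r.X c) := projective_iff_hasProjectiveDimensionLT_one.mpr hr4
    exact ModuleCat.projective_of_module_projective (r.X c)
  -- the bound
  have hchain : ∀ i, d.eN (s.X i) ≤ d.eN (s.X 0) := by
    intro i
    induction i with
    | zero => exact le_rfl
    | succ i ih =>
      obtain ⟨h1, h2⟩ := d.eN_step ha s i (hpall i)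
      omega
  let D := d.eN (s.X 0) * finrank k R
  have hdim : ∀ i, finrank k (s.X (i + 1)) ≤ D := by
    intro i
    obtain ⟨h1, h2⟩ := d.eN_step ha s i (hpall i)
    let ι' : s.X (i + 1) →ₗ[k] s.P i :=
      { toFun := (s.ι i).hom
        map_add' := map_add _
        map_smul' := fun c y => by
          change (s.ι i).hom (algebraMap k R c • y) = algebraMap k R c • (s.ι i).hom y
          rw [map_smul] }
    have h3 : finrank k (s.X (i + 1)) ≤ finrank k (s.P i) :=
      LinearMap.finrank_le_finrank_of_injective (f := ι') (s.ι_injective i)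
    have h4 := d.finrank_le_eN (s.P i) ha d.res_fin
    have h5 := hchain i
    calc finrank k (s.X (i + 1)) ≤ finrank k (s.P i) := h3
      _ ≤ d.eN (s.P i) * finrank k R := h4
      _ ≤ d.eN (s.X 0) * finrank k R := Nat.mul_le_mul_right _ (h2.trans h5)
  refine bounded_syzygy k s h₂ h₁ m hm D fun N => ⟨N + 1, by omega, 1, fun _ => s.X (N + 1), ?_, ?_⟩
  · intro j
    refine (length_le_finrank (k := k) (s.X (N + 1))).trans ?_
    exact_mod_cast hdim N
  · exact ⟨(LinearEquiv.funUnique (Fin 1) R (s.X (N + 1))).symm⟩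

end OreData

end Vale.Agent.Lib.P195.Ore
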