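import Vale.Agent.Lib.P195.Ore.Main

/-!
Quantum complete intersections: algebras with generators `x i`, relations
`x j * x i = q i j • (x i * x j)` for `i < j` and `x i ^ e i = 0`, and the basis of ordered
monomials. They satisfy the Auslander-Reiten property, by induction on the number of variables.
-/

set_option linter.style.haveILetI false
set_option linter.unusedVariables false
set_option linter.unusedSectionVars false

open CategoryTheory Abelian Module

namespace Vale.Agent.Lib.P195.Ore

universe u v

section Mon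

variable {k : Type v} {R : Type u} [Field k] [Ring R] [Algebra k R]

lemma mon_succ {n : ℕ} (x : Fin (n + 1) → R) (E : Fin (n + 1) → ℕ) :
    mon x E = mon (fun i => x i.castSucc) (fun i => E i.castSucc) * x (Fin.last n) ^ E (Fin.last n) := by
  unfold mon
  rw [List.finRange_succ_last, List.map_append, List.prod_append, List.map_map]
  simp [Function.comp_def]

lemma mon_zero {n : ℕ} (x : Fin n → R) (E : Fin n → ℕ) (hE : ∀ i, E i = 0) : mon x E = 1 := by
  unfold mon
  apply List.prod_eq_one
  intro r hr
  obtain ⟨i, -, rfl⟩ := List.mem_map.mp hr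
  rw [hE, pow_zero]

lemma mon_single {n : ℕ} (x : Fin n → R) (i : Fin n) : mon x (Pi.single i 1) = x i := by
  classical
  induction n with
  | zero => exact i.elim0
  | succ n ih =>
    rw [mon_succ]
    refine Fin.lastCases ?_ (fun i' => ?_) i
    · rw [mon_zero]
      · simp
      · intro j
        rw [Pi.single_eq_of_ne]
        exact (Fin.castSucc_lt_last j).ne
    · have h1 : (fun j : Fin n => (Pi.single i'.castSucc 1 : Fin (n + 1) → ℕ) j.castSucc) =
          Pi.single i' 1 := by
        funext j
        by_cases h : j = i'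
        · subst h
          simp
        · rw [Pi.single_eq_of_ne h, Pi.single_eq_of_ne]
          intro h'
          exact h (Fin.castSucc_injective _ h')
      rw [h1, ih, Pi.single_eq_of_ne (Fin.castSucc_lt_last i').ne', pow_zero, mul_one]

lemma mon_eq_zero {n : ℕ} (x : Fin n → R) (e E : Fin n → ℕ) (he : ∀ i, x i ^ e i = 0) (i : Fin n)
    (hi : e i ≤ E i) : mon x E = 0 := by
  unfold mon
  apply List.prod_eq_zero
  refine List.mem_map.mpr ⟨i, List.mem_finRange i, ?_⟩
  obtain ⟨c, hc⟩ := Nat.exists_eq_add_of_le hi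
  rw [hc, pow_add, he, zero_mul]

lemma comm_pow {y z : R} {c : k} (h : y * z = c • (z * y)) (b : ℕ) :
    y * z ^ b = c ^ b • (z ^ b * y) := by
  induction b with
  | zero => simp
  | succ b ih =>
    rw [pow_succ, ← mul_assoc, ih, smul_mul_assoc, mul_assoc, h, mul_smul_comm, smul_smul, ← pow_succ,
      ← mul_assoc, ← pow_succ]

lemma pow_comm_pow {y z : R} {c : k} (h : y * z = c • (z * y)) (a b : ℕ) :
    y ^ a * z ^ b = (c ^ b) ^ a • (z ^ b * y ^ a) := by
  have h1 := comm_pow h b
  induction a with
  | zero => simp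
  | succ a ih =>
    rw [pow_succ, mul_assoc, h1, mul_smul_comm, ← mul_assoc, ih, smul_mul_assoc, smul_smul, ← pow_succ,
      mul_assoc, ← pow_succ, pow_succ (c ^ b) a, mul_comm]

lemma comm_mon {n : ℕ} (x : Fin n → R) (y : R) (Q : Fin n → k) (hy : ∀ i, y * x i = Q i • (x i * y))
    (E : Fin n → ℕ) : y * mon x E = (∏ i, Q i ^ E i) • (mon x E * y) := by
  induction n with
  | zero => simp [mon]
  | succ n ih =>
    rw [mon_succ, ← mul_assoc, ih _ _ (fun i => hy i.castSucc), smul_mul_assoc, mul_assoc,
      comm_pow (hy _), mul_smul_comm, smul_smul, Fin.prod_univ_castSucc, ← mul_assoc]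

lemma mon_mul {n : ℕ} (x : Fin n → R) (q : Fin n → Fin n → k)
    (rel : ∀ i j, i < j → x j * x i = q i j • (x i * x j)) (E E' : Fin n → ℕ) :
    ∃ c : k, mon x E * mon x E' = c • mon x (E + E') := by
  induction n with
  | zero => exact ⟨1, by simp [mon]⟩
  | succ n ih =>
    obtain ⟨c, hc⟩ := ih (fun i => x i.castSucc) (fun i j => q i.castSucc j.castSucc)
      (fun i j hij => rel _ _ (Fin.castSucc_lt_castSucc_iff.mpr hij))
      (fun i => E i.castSucc) (fun i => E' i.castSucc)
    have hy : ∀ i : Fin n, x (Fin.last n) ^ E (Fin.last n) * x i.castSucc =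
        (q i.castSucc (Fin.last n) ^ E (Fin.last n)) •
          (x i.castSucc * x (Fin.last n) ^ E (Fin.last n)) := by
      intro i
      have := pow_comm_pow (rel i.castSucc (Fin.last n) (Fin.castSucc_lt_last i))
        (E (Fin.last n)) 1
      simpa using this
    rw [mon_succ x E, mon_succ x E', mon_succ x (E + E')]
    refine ⟨(∏ i : Fin n, (q i.castSucc (Fin.last n) ^ E (Fin.last n)) ^ E' i.castSucc) * c, ?_⟩
    have h1 := comm_mon (fun i => x i.castSucc) (x (Fin.last n) ^ E (Fin.last n)) _ hy
      (fun i => E' i.castSucc)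
    calc mon (fun i => x i.castSucc) (fun i => E i.castSucc) * x (Fin.last n) ^ E (Fin.last n) *
          (mon (fun i => x i.castSucc) (fun i => E' i.castSucc) * x (Fin.last n) ^ E' (Fin.last n))
        = mon (fun i => x i.castSucc) (fun i => E i.castSucc) *
          (x (Fin.last n) ^ E (Fin.last n) * mon (fun i => x i.castSucc) (fun i => E' i.castSucc)) *
            x (Fin.last n) ^ E' (Fin.last n) := by simp only [mul_assoc]
      _ = _ := by
        rw [h1]
        simp only [mul_smul_comm, smul_mul_assoc]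
        rw [← mul_assoc (mon _ _) (mon _ _), hc]
        simp only [smul_mul_assoc, smul_smul, mul_assoc, ← pow_add]
        simp only [Pi.add_apply]
        rfl

end Mon

namespace QuantumCI

variable {k : Type v} {R : Type u} [Field k] [Ring R] [Algebra k R] {n : ℕ}
  (D : QuantumCI k R (n + 1))

/-- The first `n` variables. -/
def xp (i : Fin n) : R := D.x i.castSucc

/-- The exponents of the first `n` variables. -/
def ep (i : Fin n) : ℕ := D.e i.castSucc

/-- The relation constants of the first `n` variables. -/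
def qp (i j : Fin n) : k := D.q i.castSucc j.castSucc

/-- The constants of the commutation with the last variable. -/
def Q (i : Fin n) : k := D.q i.castSucc (Fin.last n)

/-- The last variable. -/
def xl : R := D.x (Fin.last n)

/-- The index set of the monomials in the first `n` variables. -/
abbrev Idx : Type := (i : Fin n) → Fin (D.ep i)

/-- The monomials in the first `n` variables. -/
def vv (g : D.Idx) : R := mon D.xp (fun i => (g i : ℕ))

lemma relp (i j : Fin n) (h : i < j) : D.xp j * D.xp i = D.qp i j • (D.xp i * D.xp j) :=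
  D.rel _ _ (Fin.castSucc_lt_castSucc_iff.mpr h)

lemma hQ (i : Fin n) : D.xl * D.xp i = D.Q i • (D.xp i * D.xl) :=
  D.rel _ _ (Fin.castSucc_lt_last i)

/-- The basis element attached to a monomial and a power of the last variable. -/
def om (j : Fin (D.e (Fin.last n))) (g : D.Idx) : (i : Fin (n + 1)) → Fin (D.e i) :=
  Fin.snoc (α := fun i => Fin (D.e i)) g j

lemma om_castSucc (j : Fin (D.e (Fin.last n))) (g : D.Idx) (i : Fin n) :
    D.om j g i.castSucc = g i :=
  Fin.snoc_castSucc (α := fun i => Fin (D.e i)) _ _ _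

lemma om_last (j : Fin (D.e (Fin.last n))) (g : D.Idx) : D.om j g (Fin.last n) = j :=
  Fin.snoc_last (α := fun i => Fin (D.e i)) _ _

lemma b_om (j : Fin (D.e (Fin.last n))) (g : D.Idx) :
    D.b (D.om j g) = D.vv g * D.xl ^ (j : ℕ) := by
  rw [D.hb, mon_succ, om_last]
  congr 2
  funext i
  rw [om_castSucc]

lemma om_bij : Function.Bijective (fun p : Fin (D.e (Fin.last n)) × D.Idx => D.om p.1 p.2) :=
  (Fin.snocEquiv (fun i => Fin (D.e i))).bijective

lemma vv_linearIndependent : LinearIndependent k D.vv := by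
  have h0 : 0 < D.e (Fin.last n) := D.e_pos _
  have h := D.b.linearIndependent.comp (fun g => D.om ⟨0, h0⟩ g) (by
    intro g g' hgg
    have := D.om_bij.1 (a₁ := (⟨0, h0⟩, g)) (a₂ := (⟨0, h0⟩, g')) hgg
    exact (Prod.ext_iff.mp this).2)
  convert h using 1
  funext g
  simp only [Function.comp, b_om]
  simp

/-- The span of the monomials in the first `n` variables. -/
def PP : Submodule k R := Submodule.span k (Set.range D.vv)

lemma mon_mem (E : Fin n → ℕ) : mon D.xp E ∈ D.PP := by
  by_cases h : ∃ i, D.ep i ≤ E i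
  · obtain ⟨i, hi⟩ := h
    rw [mon_eq_zero D.xp D.ep E (fun i => D.pow _) i hi]
    exact zero_mem _
  · push Not at h
    exact Submodule.subset_span ⟨fun i => ⟨E i, h i⟩, rfl⟩

lemma one_mem_PP : (1 : R) ∈ D.PP := by
  have := D.mon_mem (fun _ => 0)
  rwa [mon_zero _ _ (fun _ => rfl)] at this

lemma mul_mem_PP (a c : R) (ha : a ∈ D.PP) (hc : c ∈ D.PP) : a * c ∈ D.PP := by
  have h := Submodule.mul_mem_mul ha hc
  unfold PP at h
  rw [Submodule.span_mul_span] at h
  refine Submodule.span_le.mpr ?_ h
  rintro _ ⟨_, ⟨g, rfl⟩, _, ⟨g', rfl⟩, rfl⟩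
  obtain ⟨c, hc⟩ := mon_mul D.xp D.qp D.relp (fun i => (g i : ℕ)) (fun i => (g' i : ℕ))
  change mon D.xp _ * mon D.xp _ ∈ _
  rw [hc]
  exact D.PP.smul_mem c (D.mon_mem _)

/-- The subalgebra of the first `n` variables. -/
def SS : Subalgebra k R := D.PP.toSubalgebra D.one_mem_PP D.mul_mem_PP

/-- The monomials as elements of the subalgebra. -/
def mS (E : Fin n → ℕ) : D.SS := ⟨mon D.xp E, D.mon_mem E⟩

/-- The basis of monomials of the subalgebra. -/
noncomputable def bS : Basis D.Idx k D.SS :=
  (Basis.span D.vv_linearIndependent).map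
    { toFun := fun y => ⟨y.1, y.2⟩
      invFun := fun y => ⟨y.1, y.2⟩
      map_add' := fun _ _ => rfl
      map_smul' := fun _ _ => rfl
      left_inv := fun _ => rfl
      right_inv := fun _ => rfl }

lemma bS_eq (g : D.Idx) : D.bS g = D.mS (fun i => (g i : ℕ)) := by
  apply Subtype.ext
  change ((Basis.span D.vv_linearIndependent g : D.PP) : R) = _
  rw [Basis.span_apply]
  rfl

lemma mS_mul (E E' : Fin n → ℕ) : ∃ c : k, D.mS E * D.mS E' = c • D.mS (E + E') := by
  obtain ⟨c, hc⟩ := mon_mul D.xp D.qp D.relp E E'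
  exact ⟨c, Subtype.ext hc⟩

/-- The diagonal linear map with weights `U`. -/
noncomputable def diagL (U : Fin n → k) : D.SS →ₗ[k] D.SS :=
  D.bS.constr k (fun g => (∏ i, U i ^ (g i : ℕ)) • D.bS g)

lemma diagL_mS (U : Fin n → k) (E : Fin n → ℕ) :
    D.diagL U (D.mS E) = (∏ i, U i ^ E i) • D.mS E := by
  by_cases h : ∃ i, D.ep i ≤ E i
  · obtain ⟨i, hi⟩ := h
    have h0 : D.mS E = 0 := Subtype.ext (mon_eq_zero D.xp D.ep E (fun i => D.pow _) i hi)
    rw [h0, map_zero, smul_zero]
  · push Not at h
    have h1 : D.mS E = D.bS (fun i => ⟨E i, h i⟩) := by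
      rw [bS_eq]
    rw [h1]
    unfold diagL
    rw [Basis.constr_basis]

/-- The diagonal algebra endomorphism with weights `U`. -/
noncomputable def diag (U : Fin n → k) : D.SS →ₐ[k] D.SS :=
  AlgHom.ofLinearMap (D.diagL U)
    (by
      have h1 : (1 : D.SS) = D.mS (fun _ => 0) := Subtype.ext (mon_zero _ _ (fun _ => rfl)).symm
      rw [h1, diagL_mS]
      simp)
    (by
      have key : (LinearMap.mul k D.SS).compr₂ (D.diagL U) =
          (LinearMap.mul k D.SS).compl₁₂ (D.diagL U) (D.diagL U) := by
        refine D.bS.ext fun g => D.bS.ext fun g' => ?_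
        simp only [LinearMap.compr₂_apply, LinearMap.mul_apply', LinearMap.compl₁₂_apply]
        rw [bS_eq, bS_eq, diagL_mS, diagL_mS]
        obtain ⟨c, hc⟩ := D.mS_mul (fun i => (g i : ℕ)) (fun i => (g' i : ℕ))
        rw [hc, map_smul, diagL_mS, smul_mul_smul_comm, hc, smul_smul, smul_smul]
        congr 1
        simp only [Pi.add_apply, pow_add, Finset.prod_mul_distrib]
        ring
      intro a c
      exact LinearMap.congr_fun₂ key a c)

lemma diag_mS (U : Fin n → k) (E : Fin n → ℕ) :
    D.diag U (D.mS E) = (∏ i, U i ^ E i) • D.mS E := D.diagL_mS U E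

lemma diag_eq_self (U : Fin n → k) (h : ∀ i, U i = 1) (s : D.SS) : D.diag U s = s := by
  have key : (D.diag U).toLinearMap = LinearMap.id := by
    refine D.bS.ext fun g => ?_
    rw [AlgHom.toLinearMap_apply, bS_eq, diag_mS]
    simp [h]
  exact LinearMap.congr_fun key s

lemma diag_diag (U U' : Fin n → k) (s : D.SS) :
    D.diag U (D.diag U' s) = D.diag (fun i => U i * U' i) s := by
  have key : (D.diag U).toLinearMap ∘ₗ (D.diag U').toLinearMap =
      (D.diag (fun i => U i * U' i)).toLinearMap := by
    refine D.bS.ext fun g => ?_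
    simp only [LinearMap.comp_apply, AlgHom.toLinearMap_apply]
    rw [bS_eq, diag_mS, map_smul, diag_mS, diag_mS, smul_smul]
    congr 1
    simp only [mul_pow, Finset.prod_mul_distrib]
    ring
  exact LinearMap.congr_fun key s

lemma Q_ne (i : Fin n) : D.Q i ≠ 0 := D.q_ne _ _

lemma diag_Q_inv (s : D.SS) : D.diag D.Q (D.diag (fun i => (D.Q i)⁻¹) s) = s := by
  rw [diag_diag]
  exact D.diag_eq_self _ (fun i => mul_inv_cancel₀ (D.Q_ne i)) s

lemma diag_inv_Q (s : D.SS) : D.diag (fun i => (D.Q i)⁻¹) (D.diag D.Q s) = s := by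
  rw [diag_diag]
  exact D.diag_eq_self _ (fun i => inv_mul_cancel₀ (D.Q_ne i)) s

/-- The automorphism of the subalgebra given by commutation with the last variable. -/
noncomputable def sg : D.SS ≃ₐ[k] D.SS :=
  AlgEquiv.ofAlgHom (D.diag D.Q) (D.diag fun i => (D.Q i)⁻¹)
    (AlgHom.ext D.diag_Q_inv) (AlgHom.ext D.diag_inv_Q)

lemma sg_apply (s : D.SS) : D.sg s = D.diag D.Q s := rfl

lemma comm_sg (s : D.SS) : D.xl * D.SS.val s = D.SS.val (D.sg s) * D.xl := by
  have key : (LinearMap.mulLeft k D.xl) ∘ₗ D.SS.val.toLinearMap =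
      (LinearMap.mulRight k D.xl) ∘ₗ D.SS.val.toLinearMap ∘ₗ (D.diag D.Q).toLinearMap := by
    refine D.bS.ext fun g => ?_
    simp only [LinearMap.comp_apply, AlgHom.toLinearMap_apply, LinearMap.mulLeft_apply,
      LinearMap.mulRight_apply]
    rw [bS_eq, diag_mS, map_smul]
    exact (comm_mon D.xp D.xl D.Q D.hQ _).trans (by rw [smul_mul_assoc]; rfl)
  exact LinearMap.congr_fun key s

/-- The map exhibiting the left `S`-basis of `R`. -/
noncomputable def Ψ : (Fin (D.e (Fin.last n)) → D.SS) →ₗ[k] R where
  toFun c := ∑ j, D.SS.val (c j) * D.xl ^ (j : ℕ)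
  map_add' c c' := by simp [add_mul, Finset.sum_add_distrib]
  map_smul' t c := by simp [Finset.smul_sum, Algebra.smul_mul_assoc]

lemma Ψ_apply (c : Fin (D.e (Fin.last n)) → D.SS) :
    D.Ψ c = ∑ j, D.SS.val (c j) * D.xl ^ (j : ℕ) := rfl

lemma Ψ_bij : Function.Bijective D.Ψ := by
  classical
  let B₁ : Basis (Σ _ : Fin (D.e (Fin.last n)), D.Idx) k (Fin (D.e (Fin.last n)) → D.SS) :=
    Pi.basis fun _ => D.bS
  let ω : (Σ _ : Fin (D.e (Fin.last n)), D.Idx) ≃ ((i : Fin (n + 1)) → Fin (D.e i)) :=
    (Equiv.sigmaEquivProd _ _).trans (Fin.snocEquiv (fun i => Fin (D.e i)))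
  let B₂ : Basis (Σ _ : Fin (D.e (Fin.last n)), D.Idx) k R := D.b.reindex ω.symm
  have key : D.Ψ = (B₁.equiv B₂ (Equiv.refl _)).toLinearMap := by
    refine B₁.ext fun p => ?_
    obtain ⟨j, g⟩ := p
    rw [LinearEquiv.coe_coe, Basis.equiv_apply, Equiv.refl_apply]
    have h2 : B₂ ⟨j, g⟩ = D.b (D.om j g) := by
      simp only [B₂, Basis.reindex_apply, Equiv.symm_symm]
      rfl
    rw [h2, b_om]
    simp only [B₁, Pi.basis_apply]
    rw [Ψ_apply, Finset.sum_eq_single j]
    · rw [Pi.single_eq_same, bS_eq]
      rfl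
    · intro j' _ hj'
      rw [Pi.single_eq_of_ne hj', map_zero, zero_mul]
    · simp
  rw [key]
  exact (B₁.equiv B₂ (Equiv.refl _)).bijective

/-- The presentation as a truncated Ore extension. -/
noncomputable def ore : OreData k D.SS R (D.e (Fin.last n)) where
  ι := D.SS.val
  x := D.xl
  σ := D.sg
  comm := D.comm_sg
  nil := D.pow _
  rep := fun r => by
    obtain ⟨c, hc⟩ := D.Ψ_bij.2 r
    refine ⟨c, hc.symm, fun c' hc' => D.Ψ_bij.1 ?_⟩
    rw [hc]
    exact hc'.symm

/-- The curve of endomorphisms. -/
noncomputable def curve (c : k) : D.SS →ₐ[k] D.SS := D.diag fun i => 1 + c * (D.Q i - 1)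

lemma curve_poly (s : D.SS) : PolyCurve (fun c => D.curve c s) := by
  intro φ
  classical
  refine ⟨∑ g, Polynomial.C (D.bS.repr s g * φ (D.bS g)) *
    ∏ i, (1 + Polynomial.X * Polynomial.C (D.Q i - 1)) ^ (g i : ℕ), fun c => ?_⟩
  rw [Polynomial.eval_finsetSum]
  change φ (D.curve c s) = _
  conv_lhs => rw [← D.bS.sum_repr s]
  rw [map_sum, map_sum]
  refine Finset.sum_congr rfl fun g _ => ?_
  rw [map_smul, map_smul, smul_eq_mul, Polynomial.eval_mul, Polynomial.eval_C]
  have h1 : D.curve c (D.bS g) = (∏ i, (1 + c * (D.Q i - 1)) ^ (g i : ℕ)) • D.bS g := by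
    rw [bS_eq]
    exact D.diag_mS _ _
  rw [h1, map_smul, smul_eq_mul, Polynomial.eval_prod]
  simp only [Polynomial.eval_pow, Polynomial.eval_add, Polynomial.eval_one, Polynomial.eval_mul,
    Polynomial.eval_X, Polynomial.eval_C]
  ring

end QuantumCI

/-- Quantum complete intersections satisfy the Auslander-Reiten property. -/
theorem quantumCI_arm {k : Type v} [Field k] [IsAlgClosed k] (n : ℕ) (m : ℕ) :
    ∀ (R : Type u) [Ring R] [Algebra k R], QuantumCI k R n → ARm R m := by
  induction n with
  | zero =>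
    intro R _ _ D M _ _ _ _
    have hs : Function.Surjective (algebraMap k R) := by
      intro r
      have hone : D.b default = 1 := by
        rw [D.hb]
        rfl
      refine ⟨D.b.repr r default, ?_⟩
      conv_rhs => rw [← D.b.sum_repr r]
      rw [Fintype.sum_unique, hone, Algebra.algebraMap_eq_smul_one]
    haveI hn : Nontrivial R := by
      have h1 : D.b default ≠ 0 := D.b.ne_zero default
      have hone : D.b default = 1 := by
        rw [D.hb]
        rfl
      rw [hone] at h1
      exact ⟨⟨1, 0, h1⟩⟩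
    let e : k ≃+* R := RingEquiv.ofBijective (algebraMap k R)
      ⟨(algebraMap k R).injective, hs⟩
    haveI : IsSemisimpleRing R := e.isSemisimpleRing
    exact Module.projective_of_isSemisimpleRing R M
  | succ n ih =>
    intro R _ _ D
    let D' : QuantumCI k D.SS n :=
      { x := fun i => D.mS (Pi.single i 1)
        q := D.qp
        e := D.ep
        q_ne := fun i j => D.q_ne _ _
        e_pos := fun i => D.e_pos _
        rel := fun i j hij => by
          apply Subtype.ext
          change mon D.xp _ * mon D.xp _ = D.qp i j • (mon D.xp _ * mon D.xp _)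
          rw [mon_single, mon_single]
          exact D.relp i j hij
        pow := fun i => by
          apply Subtype.ext
          change (mon D.xp _) ^ _ = 0
          rw [mon_single]
          exact D.pow _
        b := D.bS
        hb := fun g => by
          rw [D.bS_eq]
          apply Subtype.ext
          change mon D.xp _ = ((((List.finRange n).map fun i =>
            (D.mS (Pi.single i 1)) ^ (g i : ℕ)).prod : D.SS) : R)
          have h1 : ((((List.finRange n).map fun i =>
            (D.mS (Pi.single i 1)) ^ (g i : ℕ)).prod : D.SS) : R) =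
              ((List.finRange n).map fun i => D.xp i ^ (g i : ℕ)).prod := by
            have := map_list_prod D.SS.val ((List.finRange n).map fun i =>
              (D.mS (Pi.single i 1)) ^ (g i : ℕ))
            refine this.trans ?_
            rw [List.map_map]
            congr 2
            funext i
            simp only [Function.comp, map_pow]
            congr 1
            exact mon_single D.xp i
          rw [h1]
          rfl }
    have hS : ARm D.SS m := ih D.SS D'
    haveI : Module.Finite k D.SS := Module.Finite.of_basis D.bS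
    refine D.ore.ore_stable (D.e_pos _) D.curve D.curve_poly ?_ ?_ ?_ m hS
    · intro s
      refine D.diag_eq_self _ (fun i => ?_) s
      simp
    · intro s
      have h1 : (fun i => 1 + (1 : k) * (D.Q i - 1)) = D.Q := by
        funext i
        ring
      change D.diag (fun i => 1 + (1 : k) * (D.Q i - 1)) s = D.diag D.Q s
      rw [h1]
    · intro c s
      change D.diag (fun i => 1 + c * (D.Q i - 1)) (D.diag D.Q s) =
        D.diag D.Q (D.diag (fun i => 1 + c * (D.Q i - 1)) s)
      rw [D.diag_diag, D.diag_diag]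
      congr 2
      funext i
      ring

end Vale.Agent.Lib.P195.Ore
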